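import Vale.Agent.Lib.P137.BD.DQHoriz

/-!
# P137 / BD-P4: general translations; see the blueprint for `BD_dq` in `DQHoriz.lean`
-/

namespace P137

open MeasureTheory Metric Set
open scoped ENNReal

theorem BD_dq (f : EuclideanSpace ℝ (Fin 2) → ℝ≥0∞) (hf : Measurable f)
    (hBD : ∀ x y : EuclideanSpace ℝ (Fin 2), (∀ i, |x i| ≤ |y i|) → f y ≤ f x)
    (hint : ∫⁻ x, f x ≠ ∞) (V : ℝ≥0∞)
    (hV : ∀ h : EuclideanSpace ℝ (Fin 2),
      ∫⁻ x, ((f x - f (x + h)) + (f (x + h) - f x)) ≤ V * ENNReal.ofReal ‖h‖)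
    (h : EuclideanSpace ℝ (Fin 2)) :
    ∫⁻ x, ((maxFun f x - maxFun f (x + h)) + (maxFun f (x + h) - maxFun f x)) ≤
      112 * V * ENNReal.ofReal ‖h‖ := by
  obtain ⟨g, hg⟩ : ∃ g, g = maxFun f := ⟨_, rfl⟩
  have hgm : Measurable g := hg ▸ measurable_maxFun f hf
  obtain ⟨u, hu⟩ : ∃ u : EuclideanSpace ℝ (Fin 2), u = !₂[h 0, 0] := ⟨_, rfl⟩
  obtain ⟨w, hw⟩ : ∃ w : EuclideanSpace ℝ (Fin 2), w = !₂[0, h 1] := ⟨_, rfl⟩
  have hsum : h = u + w := by
    rw [hu, hw]
    ext i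
    fin_cases i <;> simp
  have hH := BD_dq_horiz f hf hBD hint V hV (h 0)
  have hVt := BD_dq_vert f hf hBD hint V hV (h 1)
  rw [← hg, ← hu] at hH
  rw [← hg, ← hw] at hVt
  rw [← hg]
  have hpt : ∀ x, (g x - g (x + h)) + (g (x + h) - g x) ≤
      ((g x - g (x + u)) + (g (x + u) - g x)) +
        ((g (x + u) - g (x + u + w)) + (g (x + u + w) - g (x + u))) := by
    intro x
    have e1 : x + h = x + u + w := by rw [hsum, add_assoc]
    rw [e1]
    have a1 : g x - g (x + u + w) ≤ (g x - g (x + u)) + (g (x + u) - g (x + u + w)) :=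
      tsub_le_tsub_add_tsub
    have a2 : g (x + u + w) - g x ≤ (g (x + u + w) - g (x + u)) + (g (x + u) - g x) :=
      tsub_le_tsub_add_tsub
    calc (g x - g (x + u + w)) + (g (x + u + w) - g x)
        ≤ ((g x - g (x + u)) + (g (x + u) - g (x + u + w))) +
          ((g (x + u + w) - g (x + u)) + (g (x + u) - g x)) := add_le_add a1 a2
      _ = _ := by ring
  have htr : ∫⁻ x, ((g (x + u) - g (x + u + w)) + (g (x + u + w) - g (x + u)))
      = ∫⁻ x, ((g x - g (x + w)) + (g (x + w) - g x)) :=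
    lintegral_add_right_eq_self (fun y => (g y - g (y + w)) + (g (y + w) - g y)) u
  have hm1 : Measurable (fun x => (g x - g (x + u)) + (g (x + u) - g x)) := by
    have hgu : Measurable (fun x => g (x + u)) := hgm.comp (measurable_id.add_const u)
    exact (hgm.sub hgu).add (hgu.sub hgm)
  have hn0 : ENNReal.ofReal |h 0| ≤ ENNReal.ofReal ‖h‖ := by
    apply ENNReal.ofReal_le_ofReal
    rw [← Real.norm_eq_abs]
    exact PiLp.norm_apply_le h 0
  have hn1 : ENNReal.ofReal |h 1| ≤ ENNReal.ofReal ‖h‖ := by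
    apply ENNReal.ofReal_le_ofReal
    rw [← Real.norm_eq_abs]
    exact PiLp.norm_apply_le h 1
  calc ∫⁻ x, ((g x - g (x + h)) + (g (x + h) - g x))
      ≤ ∫⁻ x, (((g x - g (x + u)) + (g (x + u) - g x)) +
        ((g (x + u) - g (x + u + w)) + (g (x + u + w) - g (x + u)))) := lintegral_mono hpt
    _ = (∫⁻ x, ((g x - g (x + u)) + (g (x + u) - g x))) +
        ∫⁻ x, ((g (x + u) - g (x + u + w)) + (g (x + u + w) - g (x + u))) :=
        lintegral_add_left hm1 _
    _ ≤ 56 * V * ENNReal.ofReal |h 0| + 56 * V * ENNReal.ofReal |h 1| := by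
        rw [htr]
        exact add_le_add hH hVt
    _ ≤ 56 * V * ENNReal.ofReal ‖h‖ + 56 * V * ENNReal.ofReal ‖h‖ :=
        add_le_add (mul_le_mul_right hn0 _) (mul_le_mul_right hn1 _)
    _ = 112 * V * ENNReal.ofReal ‖h‖ := by ring

end P137
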