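import Vale.Agent.Lib.P137.BD.DQVert

/-!
# P137 / BD-P3: horizontal difference quotients, general translations

Blueprint for `BD_dq_horiz`. Apply `BD_dq_vert` to `f' = fun z => f (sw z)` (`hf.comp measurable_sw`, `swap_BD`, `swap_int`, `swap_dq`). Rewrite `maxFun f' x = maxFun f (sw x)` (`maxFun_sw`), `sw (x + !₂[0, t]) = sw x + !₂[t, 0]` (`sw_add`, `sw_pt`), and remove `sw` by
`lintegral_comp_sw` applied to `G y = (maxFun f y - maxFun f (y + !₂[t, 0])) + (maxFun f (y + !₂[t, 0]) - maxFun f y)`.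
Blueprint for `BD_dq`. `h = !₂[h 0, 0] + !₂[0, h 1]`. With `g = maxFun f`, `p = x + !₂[h 0, 0]`: `(g x - g (x + h)) + (g (x + h) - g x) ≤ ((g x - g p) + (g p - g x)) + ((g p - g (p + !₂[0, h 1])) + (g (p + !₂[0, h 1]) - g p))`
(`tsub_le_tsub_add_tsub`, `add_assoc`). Integrate: `lintegral_add_left` (measurability from `measurable_maxFun`) or `lintegral_add_le`-free version `le_trans (lintegral_mono _) (lintegral_add_left ..).le`; the second integral is translation invariant (`lintegral_add_right_eq_self`). Finally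
`|h 0| ≤ ‖h‖`, `|h 1| ≤ ‖h‖` (`PiLp.norm_apply_le`, `Real.norm_eq_abs`).
-/

namespace P137

open MeasureTheory Metric Set
open scoped ENNReal

theorem BD_dq_horiz (f : EuclideanSpace ℝ (Fin 2) → ℝ≥0∞) (hf : Measurable f)
    (hBD : ∀ x y : EuclideanSpace ℝ (Fin 2), (∀ i, |x i| ≤ |y i|) → f y ≤ f x)
    (hint : ∫⁻ x, f x ≠ ∞) (V : ℝ≥0∞)
    (hV : ∀ h : EuclideanSpace ℝ (Fin 2),
      ∫⁻ x, ((f x - f (x + h)) + (f (x + h) - f x)) ≤ V * ENNReal.ofReal ‖h‖) (t : ℝ) :
    ∫⁻ x, ((maxFun f x - maxFun f (x + !₂[t, 0])) + (maxFun f (x + !₂[t, 0]) - maxFun f x)) ≤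
      56 * V * ENNReal.ofReal |t| := by
  have h := BD_dq_vert (fun z => f (sw z)) (hf.comp measurable_sw) (swap_BD f hBD)
    (swap_int f hint) V (swap_dq f V hV) t
  have h2 := lintegral_comp_sw (fun y => (maxFun f y - maxFun f (y + !₂[t, 0])) +
    (maxFun f (y + !₂[t, 0]) - maxFun f y))
  rw [← h2]
  refine le_trans (le_of_eq ?_) h
  refine lintegral_congr (fun x => ?_)
  simp only [maxFun_sw, sw_add, sw_pt]

end P137
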