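import Vale.Agent.Lib.P137.BD.Refl2

/-!
# P137 / BD-B': the centred maximal function of a block-decreasing function is block-decreasing

Blueprint. Go from `y` to `x` in two steps through `w = !₂[x 0, y 1]` with `ball_int_le_of_coord` (`i = 0` from `y` to `w`, `i = 1` from `w` to `x`; `Fin.forall_fin_two`, `simp`); `Measure.addHaar_ball_center`; `iSup_mono` as in `maxFun_anti` (`Main.lean`).
-/

namespace P137

open MeasureTheory Metric Set
open scoped ENNReal

theorem maxFun_BD (f : EuclideanSpace ℝ (Fin 2) → ℝ≥0∞) (hf : Measurable f)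
    (hBD : ∀ x y : EuclideanSpace ℝ (Fin 2), (∀ i, |x i| ≤ |y i|) → f y ≤ f x)
    (x y : EuclideanSpace ℝ (Fin 2)) (hxy : ∀ i, |x i| ≤ |y i|) :
    maxFun f y ≤ maxFun f x := by
  unfold maxFun
  refine iSup_mono fun r => ?_
  rw [Measure.addHaar_ball_center volume y r.1, Measure.addHaar_ball_center volume x r.1]
  refine mul_le_mul_right ?_ _
  set w : EuclideanSpace ℝ (Fin 2) := !₂[x 0, y 1] with hw
  have hw0 : w 0 = x 0 := by simp [hw]
  have hw1 : w 1 = y 1 := by simp [hw]
  have s1 : ∫⁻ z in ball y r.1, f z ≤ ∫⁻ z in ball w r.1, f z := by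
    refine ball_int_le_of_coord f hf hBD w y 0 ?_ ?_ r.1
    · intro j hj
      fin_cases j
      · exact absurd rfl hj
      · exact hw1.symm
    · rw [hw0]
      exact hxy 0
  have s2 : ∫⁻ z in ball w r.1, f z ≤ ∫⁻ z in ball x r.1, f z := by
    refine ball_int_le_of_coord f hf hBD x w 1 ?_ ?_ r.1
    · intro j hj
      fin_cases j
      · exact hw0
      · exact absurd rfl hj
    · rw [hw1]
      exact hxy 1
  exact s1.trans s2

end P137
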