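import Vale.Agent.Lib.P137.Defs

/-!
# P137 / BD-C: the centred maximal function of a measurable function is measurable

Blueprint. `measurable_ball_int`: `∫⁻ y in ball x r, f y = ∫⁻ y, indicator {p : E × E | dist p.2 p.1 < r} (fun p => f p.2) (x, y)`; the set is measurable (open), so `Measurable.lintegral_prod_right'` applies.
`maxFun_eq_iSup_rat`: `≥` is clear. For `≤` fix `r > 0`: `ball x r = ⋃ over rational q with 0 < q < r of ball x q`, a directed union, so `∫⁻ over ball x r = ⨆ q, ∫⁻ over ball x q` (`setLIntegral_iUnion_of_directed`, or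
monotone convergence along a rational sequence increasing to `r`), and `(volume (ball x r))⁻¹ ≤ (volume (ball x q))⁻¹`; `ENNReal.mul_iSup`.
`measurable_maxFun`: countable supremum (`Measurable.iSup`) of measurable functions; `volume (ball x q) = volume (ball 0 q)` does not depend on `x` (`Measure.addHaar_ball_center`).
-/

namespace P137

open MeasureTheory Metric Set
open scoped ENNReal

theorem measurable_ball_int {d : ℕ} (f : EuclideanSpace ℝ (Fin d) → ℝ≥0∞) (hf : Measurable f)
    (r : ℝ) : Measurable (fun x : EuclideanSpace ℝ (Fin d) => ∫⁻ y in ball x r, f y) := by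
  have hS : MeasurableSet
      {p : EuclideanSpace ℝ (Fin d) × EuclideanSpace ℝ (Fin d) | dist p.2 p.1 < r} :=
    (isOpen_lt (continuous_snd.dist continuous_fst) continuous_const).measurableSet
  have h1 : Measurable (fun p : EuclideanSpace ℝ (Fin d) × EuclideanSpace ℝ (Fin d) =>
      Set.indicator {p : EuclideanSpace ℝ (Fin d) × EuclideanSpace ℝ (Fin d) |
        dist p.2 p.1 < r} (fun p => f p.2) p) :=
    (hf.comp measurable_snd).indicator hS
  have h2 := h1.lintegral_prod_right' (ν := (volume : Measure (EuclideanSpace ℝ (Fin d))))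
  have h3 : (fun x : EuclideanSpace ℝ (Fin d) => ∫⁻ y in ball x r, f y) =
      fun x => ∫⁻ y, Set.indicator
        {p : EuclideanSpace ℝ (Fin d) × EuclideanSpace ℝ (Fin d) | dist p.2 p.1 < r}
        (fun p => f p.2) (x, y) := by
    funext x
    rw [← lintegral_indicator measurableSet_ball]
    congr 1
  rw [h3]
  exact h2

theorem maxFun_eq_iSup_rat {d : ℕ} (f : EuclideanSpace ℝ (Fin d) → ℝ≥0∞)
    (x : EuclideanSpace ℝ (Fin d)) :
    maxFun f x = ⨆ q : {q : ℚ // 0 < q},
      (volume (ball x (q.1 : ℝ)))⁻¹ * ∫⁻ y in ball x (q.1 : ℝ), f y := by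
  apply le_antisymm
  · unfold maxFun
    refine iSup_le fun r => ?_
    obtain ⟨u, hu, hlt, htend⟩ := Real.exists_seq_rat_strictMono_tendsto r.1
    have hU : ball x r.1 = ⋃ n, ball x (u n : ℝ) := by
      ext y
      simp only [mem_ball, mem_iUnion]
      constructor
      · intro hy
        exact (htend.eventually (lt_mem_nhds hy)).exists
      · rintro ⟨n, hn⟩
        exact hn.trans (hlt n)
    have hd : Directed (· ⊆ ·) (fun n => ball x (u n : ℝ)) := by
      apply Monotone.directed_le
      intro a b hab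
      apply ball_subset_ball
      exact_mod_cast hu.monotone hab
    rw [hU, setLIntegral_iUnion_of_directed f hd, ENNReal.mul_iSup]
    refine iSup_le fun n => ?_
    by_cases hn : 0 < u n
    · refine le_trans ?_ (le_iSup (fun q : {q : ℚ // 0 < q} =>
        (volume (ball x (q.1 : ℝ)))⁻¹ * ∫⁻ y in ball x (q.1 : ℝ), f y) ⟨u n, hn⟩)
      gcongr
      rw [← hU]
      exact ball_subset_ball (hlt n).le
    · have h0 : ball x (u n : ℝ) = ∅ := by
        apply ball_eq_empty.2
        exact_mod_cast not_lt.1 hn
      simp [h0]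
  · refine iSup_le fun q => ?_
    unfold maxFun
    exact le_iSup (fun r : {r : ℝ // 0 < r} =>
      (volume (ball x r.1))⁻¹ * ∫⁻ y in ball x r.1, f y) ⟨(q.1 : ℝ), by exact_mod_cast q.2⟩

theorem measurable_maxFun {d : ℕ} (f : EuclideanSpace ℝ (Fin d) → ℝ≥0∞) (hf : Measurable f) :
    Measurable (maxFun f) := by
  have h : maxFun f = fun x => ⨆ q : {q : ℚ // 0 < q},
      (volume (ball x (q.1 : ℝ)))⁻¹ * ∫⁻ y in ball x (q.1 : ℝ), f y := by
    funext x
    exact maxFun_eq_iSup_rat f x
  rw [h]
  refine Measurable.iSup fun q => ?_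
  refine Measurable.mul ?_ (measurable_ball_int f hf _)
  have hc : (fun x : EuclideanSpace ℝ (Fin d) => (volume (ball x (q.1 : ℝ)))⁻¹) =
      fun _ => (volume (ball (0 : EuclideanSpace ℝ (Fin d)) (q.1 : ℝ)))⁻¹ := by
    funext x
    rw [Measure.addHaar_ball_center]
  rw [hc]
  exact measurable_const

end P137
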