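import Vale.Agent.Lib.P137.BD.Defs2

/-!
# P137 / BD-O: the coordinate swap

Blueprint. `sw` is the linear isometry equivalence `LinearIsometryEquiv.piLpCongrLeft 2 ℝ ℝ (Equiv.swap 0 1)` (check on coordinates with `Fin.forall_fin_two`), which gives measurability, `norm_sw` and `sw_measurePreserving` (`LinearIsometryEquiv.measurePreserving`). Alternatively
prove `norm_sw` from `EuclideanSpace.norm_eq`, `Fin.sum_univ_two`, `add_comm`.
`maxFun_sw`: for each `r`, `volume (ball x r) = volume (ball (sw x) r)` (`Measure.addHaar_ball_center`) and `∫⁻ z in ball x r, f (sw z) = ∫⁻ w in ball (sw x) r, f w` (`MeasurePreserving.setLIntegral_comp_preimage_emb` for the measurable equivalence, with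
`sw ⁻¹' ball (sw x) r = ball x r` because `dist (sw z) (sw x) = ‖sw (z - x)‖ = dist z x`).
-/

namespace P137

open MeasureTheory Metric Set
open scoped ENNReal

/-- the swap as a linear isometry equivalence -/
noncomputable def swE : EuclideanSpace ℝ (Fin 2) ≃ₗᵢ[ℝ] EuclideanSpace ℝ (Fin 2) :=
  LinearIsometryEquiv.piLpCongrLeft 2 ℝ ℝ (Equiv.swap 0 1)

theorem sw_eq_swE : sw = swE := by
  funext x
  ext i
  fin_cases i
  · simp [sw, swE, LinearIsometryEquiv.piLpCongrLeft_apply, Equiv.piCongrLeft'_apply]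
  · simp [sw, swE, LinearIsometryEquiv.piLpCongrLeft_apply, Equiv.piCongrLeft'_apply]

theorem sw_sw (x : EuclideanSpace ℝ (Fin 2)) : sw (sw x) = x := by
  ext i
  fin_cases i <;> simp [sw]

theorem sw_add (x y : EuclideanSpace ℝ (Fin 2)) : sw (x + y) = sw x + sw y := by
  rw [sw_eq_swE]
  exact map_add swE x y

theorem sw_pt (a b : ℝ) : sw !₂[a, b] = !₂[b, a] := by
  simp [sw]

theorem norm_sw (x : EuclideanSpace ℝ (Fin 2)) : ‖sw x‖ = ‖x‖ := by
  rw [sw_eq_swE]
  exact swE.norm_map x

theorem measurable_sw : Measurable sw := by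
  rw [sw_eq_swE]
  exact swE.continuous.measurable

theorem sw_measurePreserving : MeasurePreserving sw volume volume := by
  rw [sw_eq_swE]
  exact swE.measurePreserving

theorem sw_measurableEmbedding : MeasurableEmbedding sw := by
  rw [sw_eq_swE]
  exact swE.toHomeomorph.measurableEmbedding

theorem lintegral_comp_sw (G : EuclideanSpace ℝ (Fin 2) → ℝ≥0∞) :
    ∫⁻ x, G (sw x) = ∫⁻ x, G x :=
  sw_measurePreserving.lintegral_comp_emb sw_measurableEmbedding G

theorem sw_preimage_ball (x : EuclideanSpace ℝ (Fin 2)) (r : ℝ) :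
    sw ⁻¹' ball (sw x) r = ball x r := by
  rw [sw_eq_swE, LinearIsometryEquiv.preimage_ball, LinearIsometryEquiv.symm_apply_apply]

theorem maxFun_sw (f : EuclideanSpace ℝ (Fin 2) → ℝ≥0∞) (x : EuclideanSpace ℝ (Fin 2)) :
    maxFun (fun z => f (sw z)) x = maxFun f (sw x) := by
  unfold maxFun
  refine iSup_congr (fun r => ?_)
  have h1 : volume (ball x r.1) = volume (ball (sw x) r.1) := by
    rw [Measure.addHaar_ball_center volume x, Measure.addHaar_ball_center volume (sw x)]
  have h2 : ∫⁻ z in ball x r.1, f (sw z) = ∫⁻ w in ball (sw x) r.1, f w := by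
    rw [← sw_preimage_ball x r.1]
    exact sw_measurePreserving.setLIntegral_comp_preimage_emb sw_measurableEmbedding f _
  rw [h1, h2]

end P137
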