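import Vale.Agent.Lib.P137.BD.TwoDLow
import Vale.Agent.Lib.P137.BD.Swap

/-!
# P137 / BD-P1: the hypotheses are invariant under the swap; strip bounds from the difference quotients

Blueprint. `swap_BD`: `(sw x) 0 = x 1`, `(sw x) 1 = x 0` (`simp [sw]`), `Fin.forall_fin_two`. `swap_int`: `lintegral_comp_sw`. `swap_dq`: `f (sw (x + h)) = f (sw x + sw h)` (`sw_add`), then `lintegral_comp_sw` applied to
`G y = (f y - f (y + sw h)) + (f (y + sw h) - f y)`, `hV (sw h)`, `norm_sw`.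
`strip2`: `BD_strip_le` with `2 * t` (`2 * t / 2 = t`), then `f x - f (x + h) ≤ (f x - f (x + h)) + (f (x + h) - f x)`, `hV !₂[0, 2 * t]` and `‖!₂[0, 2 * t]‖ = 2 * t` (`EuclideanSpace.norm_eq`, `Fin.sum_univ_two`, `Real.sqrt_sq`), `ENNReal.ofReal_mul`.
`strip1`: `strip2` for `fun z => f (sw z)` (with `swap_BD`, `swap_int`, `swap_dq`, `measurable_sw`) and `sw_pt`.
-/

namespace P137

open MeasureTheory Metric Set
open scoped ENNReal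

theorem swap_BD (f : EuclideanSpace ℝ (Fin 2) → ℝ≥0∞)
    (hBD : ∀ x y : EuclideanSpace ℝ (Fin 2), (∀ i, |x i| ≤ |y i|) → f y ≤ f x) :
    ∀ x y : EuclideanSpace ℝ (Fin 2), (∀ i, |x i| ≤ |y i|) → f (sw y) ≤ f (sw x) := by
  intro x y h
  apply hBD
  rw [Fin.forall_fin_two] at h ⊢
  obtain ⟨h0, h1⟩ := h
  constructor
  · simpa [sw] using h1
  · simpa [sw] using h0

theorem swap_int (f : EuclideanSpace ℝ (Fin 2) → ℝ≥0∞) (hint : ∫⁻ x, f x ≠ ∞) :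
    ∫⁻ x, f (sw x) ≠ ∞ := by
  rw [lintegral_comp_sw f]
  exact hint

theorem swap_dq (f : EuclideanSpace ℝ (Fin 2) → ℝ≥0∞) (V : ℝ≥0∞)
    (hV : ∀ h : EuclideanSpace ℝ (Fin 2),
      ∫⁻ x, ((f x - f (x + h)) + (f (x + h) - f x)) ≤ V * ENNReal.ofReal ‖h‖) :
    ∀ h : EuclideanSpace ℝ (Fin 2),
      ∫⁻ x, ((f (sw x) - f (sw (x + h))) + (f (sw (x + h)) - f (sw x))) ≤
        V * ENNReal.ofReal ‖h‖ := by
  intro h
  simp only [sw_add]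
  rw [lintegral_comp_sw (fun y => (f y - f (y + sw h)) + (f (y + sw h) - f y))]
  have := hV (sw h)
  rwa [norm_sw] at this

theorem strip2 (f : EuclideanSpace ℝ (Fin 2) → ℝ≥0∞) (hf : Measurable f)
    (hBD : ∀ x y : EuclideanSpace ℝ (Fin 2), (∀ i, |x i| ≤ |y i|) → f y ≤ f x)
    (hint : ∫⁻ x, f x ≠ ∞) (V : ℝ≥0∞)
    (hV : ∀ h : EuclideanSpace ℝ (Fin 2),
      ∫⁻ x, ((f x - f (x + h)) + (f (x + h) - f x)) ≤ V * ENNReal.ofReal ‖h‖)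
    (t : ℝ) (ht : 0 < t) :
    ∫⁻ a : ℝ, ∫⁻ b in Ioo (-t) t, f !₂[a, b] ≤ 2 * V * ENNReal.ofReal t := by
  have h1 := BD_strip_le f hf hBD hint (2 * t) (by linarith)
  have h2t : 2 * t / 2 = t := by ring
  rw [h2t] at h1
  have h2 : ∫⁻ x, (f x - f (x + !₂[0, 2 * t])) ≤
      ∫⁻ x, ((f x - f (x + !₂[0, 2 * t])) + (f (x + !₂[0, 2 * t]) - f x)) :=
    lintegral_mono fun x => le_self_add
  have h3 := hV !₂[0, 2 * t]
  have hn : ‖(!₂[0, 2 * t] : EuclideanSpace ℝ (Fin 2))‖ = 2 * t := by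
    rw [EuclideanSpace.norm_eq, Fin.sum_univ_two]
    simp only [Matrix.cons_val_zero, Matrix.cons_val_one, norm_zero, Real.norm_eq_abs, sq_abs]
    rw [show (0 : ℝ) ^ 2 + (2 * t) ^ 2 = (2 * t) ^ 2 by ring, Real.sqrt_sq (by linarith)]
  rw [hn, ENNReal.ofReal_mul (by norm_num)] at h3
  calc ∫⁻ a : ℝ, ∫⁻ b in Ioo (-t) t, f !₂[a, b]
      ≤ V * (ENNReal.ofReal 2 * ENNReal.ofReal t) := h1.trans (h2.trans h3)
    _ = 2 * V * ENNReal.ofReal t := by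
        rw [ENNReal.ofReal_ofNat]; ring

theorem strip1 (f : EuclideanSpace ℝ (Fin 2) → ℝ≥0∞) (hf : Measurable f)
    (hBD : ∀ x y : EuclideanSpace ℝ (Fin 2), (∀ i, |x i| ≤ |y i|) → f y ≤ f x)
    (hint : ∫⁻ x, f x ≠ ∞) (V : ℝ≥0∞)
    (hV : ∀ h : EuclideanSpace ℝ (Fin 2),
      ∫⁻ x, ((f x - f (x + h)) + (f (x + h) - f x)) ≤ V * ENNReal.ofReal ‖h‖)
    (t : ℝ) (ht : 0 < t) :
    ∫⁻ b : ℝ, ∫⁻ a in Ioo (-t) t, f !₂[a, b] ≤ 2 * V * ENNReal.ofReal t := by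
  have h := strip2 (fun z => f (sw z)) (hf.comp measurable_sw) (swap_BD f hBD) (swap_int f hint) V
    (swap_dq f V hV) t ht
  simpa only [sw_pt] using h

end P137
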