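import Vale.Agent.Lib.P137.BD.OneD

/-!
# P137 / BD-D': see the blueprint for `unimodal_shift_le` in `OneD.lean`
-/

namespace P137

open MeasureTheory Metric Set
open scoped ENNReal

theorem unimodal_shift_one_le (ψ : ℝ → ℝ≥0∞) (hψ : ∀ s s' : ℝ, |s| ≤ |s'| → ψ s' ≤ ψ s) (t : ℝ) :
    ∫⁻ s, (ψ s - ψ (s + t)) ≤ ENNReal.ofReal |t| * ψ 0 := by
  have hm : Measurable ψ := unimodal_measurable ψ hψ
  have hm2 : Measurable (fun s => ψ (s + t)) := hm.comp (measurable_id.add_const t)
  have e1 := lintegral_sub_mul_eq (volume : Measure ℝ) ψ (fun s => ψ (s + t)) (fun _ => 1)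
    hm hm2 measurable_const
  simp only [mul_one] at e1
  rw [e1]
  set T : Set ℝ :=
    {τ : ℝ | 0 < τ ∧ (0 : ℝ≥0∞) ≤ ENNReal.ofReal τ ∧ ENNReal.ofReal τ < ψ 0} with hTdef
  have hT : MeasurableSet T := by
    have m1 : MeasurableSet {τ : ℝ | 0 < τ} := measurableSet_lt measurable_const measurable_id
    have m2 : MeasurableSet {τ : ℝ | (0 : ℝ≥0∞) ≤ ENNReal.ofReal τ} :=
      measurableSet_le measurable_const ENNReal.measurable_ofReal
    have m3 : MeasurableSet {τ : ℝ | ENNReal.ofReal τ < ψ 0} :=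
      measurableSet_lt ENNReal.measurable_ofReal measurable_const
    exact m1.inter (m2.inter m3)
  calc ∫⁻ τ in Ioi (0 : ℝ),
        ∫⁻ _ in {x | ψ (x + t) ≤ ENNReal.ofReal τ ∧ ENNReal.ofReal τ < ψ x}, (1 : ℝ≥0∞)
      ≤ ∫⁻ τ, T.indicator (fun _ => ENNReal.ofReal |t|) τ := by
        rw [← lintegral_indicator measurableSet_Ioi]
        refine lintegral_mono (fun τ => ?_)
        by_cases hτ : τ ∈ Ioi (0 : ℝ)
        · rw [indicator_of_mem hτ]
          by_cases h0 : ENNReal.ofReal τ < ψ 0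
          · have hmem : τ ∈ T := ⟨hτ, bot_le, h0⟩
            rw [indicator_of_mem hmem]
            have := vol_shift_le_1d ψ hψ (ENNReal.ofReal τ) t
            simpa using this
          · have hempty : {x | ψ (x + t) ≤ ENNReal.ofReal τ ∧ ENNReal.ofReal τ < ψ x} = ∅ := by
              ext x
              simp only [mem_ofPred_eq, mem_empty_iff_false, iff_false]
              rintro ⟨_, h2⟩
              exact h0 (lt_of_lt_of_le h2 (hψ 0 x (by simp)))
            rw [hempty]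
            simp
        · rw [indicator_of_notMem hτ]
          exact bot_le
    _ = ENNReal.ofReal |t| * volume T := lintegral_indicator_const hT _
    _ = ENNReal.ofReal |t| * ψ 0 := by rw [hTdef, layer_vol, tsub_zero]

theorem unimodal_shift_le (ψ : ℝ → ℝ≥0∞) (hψ : ∀ s s' : ℝ, |s| ≤ |s'| → ψ s' ≤ ψ s) (t : ℝ) :
    ∫⁻ s, ((ψ s - ψ (s + t)) + (ψ (s + t) - ψ s)) ≤ 2 * ENNReal.ofReal |t| * ψ 0 := by
  have hm : Measurable ψ := unimodal_measurable ψ hψ
  have hm2 : Measurable (fun s => ψ (s + t)) := hm.comp (measurable_id.add_const t)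
  have h3 : Measurable (fun s => ψ s - ψ (s + t)) := hm.sub hm2
  rw [lintegral_add_left h3]
  have a1 := unimodal_shift_one_le ψ hψ t
  have a2 := unimodal_shift_one_le ψ hψ (-t)
  rw [abs_neg] at a2
  have e : ∫⁻ s, (ψ (s + t) - ψ s) = ∫⁻ s, (ψ s - ψ (s + -t)) := by
    rw [← lintegral_add_right_eq_self (fun s : ℝ => ψ s - ψ (s + -t)) t]
    simp
  rw [e]
  refine (add_le_add a1 a2).trans (le_of_eq ?_)
  ring

end P137
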