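import Vale.Agent.Lib.P137.BD.Transfer
import Vale.Agent.Lib.P137.BD.OneDUp

/-!
# P137 / BD-E: vertical translation differences of a block-decreasing function in the plane

Blueprint. Apply `lintegral_E2` to the (measurable) integrand; `!₂[a, b] + !₂[0, t] = !₂[a, b + t]` (ext, `Fin.forall_fin_two`, `simp`). For fixed `a`, `ψ b = g !₂[a, b]` satisfies the hypothesis of `unimodal_shift_le` (by `hBD`), so the inner integral is
`≤ 2 * ofReal |t| * g !₂[a, 0]`; `lintegral_mono`, `lintegral_const_mul'` or `lintegral_const_mul` (`g ∘ pt` measurable by `measurable_pt`).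
-/

namespace P137

open MeasureTheory Metric Set
open scoped ENNReal

theorem BD_shift_le (g : EuclideanSpace ℝ (Fin 2) → ℝ≥0∞) (hg : Measurable g)
    (hBD : ∀ x y : EuclideanSpace ℝ (Fin 2), (∀ i, |x i| ≤ |y i|) → g y ≤ g x) (t : ℝ) :
    ∫⁻ x, ((g x - g (x + !₂[0, t])) + (g (x + !₂[0, t]) - g x)) ≤
      2 * ENNReal.ofReal |t| * ∫⁻ a : ℝ, g !₂[a, 0] := by
  have hg2 : Measurable (fun x : EuclideanSpace ℝ (Fin 2) => g (x + !₂[0, t])) :=
    hg.comp (measurable_id.add_const _)
  have hG : Measurable (fun x : EuclideanSpace ℝ (Fin 2) =>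
      (g x - g (x + !₂[0, t])) + (g (x + !₂[0, t]) - g x)) :=
    (hg.sub hg2).add (hg2.sub hg)
  rw [lintegral_E2 _ hG]
  have hadd : ∀ a b : ℝ, (!₂[a, b] + !₂[0, t] : EuclideanSpace ℝ (Fin 2)) = !₂[a, b + t] := by
    intro a b
    ext i
    fin_cases i <;> simp
  have hm0 : Measurable (fun a : ℝ => g !₂[a, 0]) :=
    hg.comp (measurable_pt.comp (measurable_id.prodMk measurable_const))
  rw [← lintegral_const_mul _ hm0]
  refine lintegral_mono fun a => ?_
  simp only [hadd]
  refine unimodal_shift_le (fun b => g !₂[a, b]) (fun s s' hs => hBD _ _ ?_) t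
  intro i
  fin_cases i <;> simp [hs]

end P137
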