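import Vale.Agent.Lib.P137.BD.Key2
import Vale.Agent.Lib.P137.BD.Strips
import Vale.Agent.Lib.P137.BD.TwoDUp
import Vale.Agent.Lib.P137.BD.MaxBD
import Vale.Agent.Lib.P137.BD.MeasMax

/-!
# P137 / BD-P2: vertical and horizontal difference quotients of the maximal function
-/

namespace P137

open MeasureTheory Metric Set
open scoped ENNReal

theorem axis_le (f : EuclideanSpace ℝ (Fin 2) → ℝ≥0∞) (hf : Measurable f)
    (hBD : ∀ x y : EuclideanSpace ℝ (Fin 2), (∀ i, |x i| ≤ |y i|) → f y ≤ f x)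
    (hint : ∫⁻ x, f x ≠ ∞) (V : ℝ≥0∞)
    (hV : ∀ h : EuclideanSpace ℝ (Fin 2),
      ∫⁻ x, ((f x - f (x + h)) + (f (x + h) - f x)) ≤ V * ENNReal.ofReal ‖h‖) :
    ∫⁻ a : ℝ, maxFun f !₂[a, 0] ≤ 28 * V := by
  have h := lintegral_maxFun_axis_le f hf hBD (2 * V) (strip2 f hf hBD hint V hV)
    (strip1 f hf hBD hint V hV)
  refine le_trans h (le_of_eq ?_)
  ring

theorem BD_dq_vert (f : EuclideanSpace ℝ (Fin 2) → ℝ≥0∞) (hf : Measurable f)
    (hBD : ∀ x y : EuclideanSpace ℝ (Fin 2), (∀ i, |x i| ≤ |y i|) → f y ≤ f x)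
    (hint : ∫⁻ x, f x ≠ ∞) (V : ℝ≥0∞)
    (hV : ∀ h : EuclideanSpace ℝ (Fin 2),
      ∫⁻ x, ((f x - f (x + h)) + (f (x + h) - f x)) ≤ V * ENNReal.ofReal ‖h‖) (t : ℝ) :
    ∫⁻ x, ((maxFun f x - maxFun f (x + !₂[0, t])) + (maxFun f (x + !₂[0, t]) - maxFun f x)) ≤
      56 * V * ENNReal.ofReal |t| := by
  have h1 := BD_shift_le (maxFun f) (measurable_maxFun f hf) (maxFun_BD f hf hBD) t
  refine le_trans h1 (le_trans (mul_le_mul_right (axis_le f hf hBD hint V hV) _) (le_of_eq ?_))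
  ring

end P137
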