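import Vale.Agent.Lib.P137.Defs

/-!
# P137 / BD: auxiliary quantities in the plane
-/

namespace P137

open MeasureTheory Metric Set
open scoped ENNReal

/-- `ρ⁻² ∫∫ over the square (-ρ, ρ)²` -/
noncomputable def sqav (f : EuclideanSpace ℝ (Fin 2) → ℝ≥0∞) (ρ : ℝ) : ℝ≥0∞ :=
  (ENNReal.ofReal ρ)⁻¹ * (ENNReal.ofReal ρ)⁻¹ *
    ∫⁻ a in Ioo (-ρ) ρ, ∫⁻ b in Ioo (-ρ) ρ, f !₂[a, b]

/-- `sup over r > 0 of r⁻¹ ∫ over |b| < r of f (a, b)` -/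
noncomputable def P2 (f : EuclideanSpace ℝ (Fin 2) → ℝ≥0∞) (a : ℝ) : ℝ≥0∞ :=
  ⨆ r : {r : ℝ // 0 < r}, (ENNReal.ofReal r.1)⁻¹ * ∫⁻ b in Ioo (-r.1) r.1, f !₂[a, b]

/-- the coordinate swap -/
noncomputable def sw (x : EuclideanSpace ℝ (Fin 2)) : EuclideanSpace ℝ (Fin 2) := !₂[x 1, x 0]

end P137
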