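import Vale.Agent.Lib.P137.BD.Transfer

/-!
# P137 / BD-Q: local integrability of a block-decreasing function with finite axis integral

Blueprint. `locallyIntegrable_iff` (or `LocallyIntegrable` from integrability on closed balls: a compact `K` lies in `closedBall 0 R`). For `x ∈ closedBall 0 R`: `|x 1| ≤ R`. By `lintegral_E2` applied to `indicator {x | |x 1| ≤ R} g`:
`∫⁻ x in K, g x ≤ ∫⁻ a, ∫⁻ b in Icc (-R) R, g !₂[a, b] ≤ ∫⁻ a, ofReal (2 * R) * g !₂[a, 0] < ∞` (`g !₂[a, b] ≤ g !₂[a, 0]` by `hBD`, `setLIntegral_const`, `Real.volume_Icc`). Then `integrable_toReal_of_lintegral_ne_top` for the restricted measure.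
-/

namespace P137

open MeasureTheory Metric Set
open scoped ENNReal

theorem BD_locallyIntegrable (g : EuclideanSpace ℝ (Fin 2) → ℝ≥0∞) (hg : Measurable g)
    (hBD : ∀ x y : EuclideanSpace ℝ (Fin 2), (∀ i, |x i| ≤ |y i|) → g y ≤ g x)
    (hfin : ∫⁻ a : ℝ, g !₂[a, 0] ≠ ∞) :
    LocallyIntegrable (fun x => (g x).toReal) volume := by
  rw [locallyIntegrable_iff]
  intro K hK
  obtain ⟨R, hR, hKR⟩ := hK.isBounded.subset_closedBall_lt 0 0
  set T : Set (EuclideanSpace ℝ (Fin 2)) := {x | |x 1| ≤ R} with hT
  have hTm : MeasurableSet T := by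
    have hc : Continuous (fun x : EuclideanSpace ℝ (Fin 2) => |x 1|) :=
      continuous_abs.comp (EuclideanSpace.proj (1 : Fin 2)).continuous
    exact hc.measurable measurableSet_Iic
  have hKT : K ⊆ T := by
    intro x hx
    have hx' : ‖x‖ ≤ R := by simpa using hKR hx
    have h1 := PiLp.norm_apply_le x 1
    rw [Real.norm_eq_abs] at h1
    exact le_trans h1 hx'
  have hma : Measurable (fun a : ℝ => g !₂[a, 0]) :=
    hg.comp (measurable_pt.comp (measurable_id.prodMk measurable_const))
  have hle : ∫⁻ x in K, g x ≤ ENNReal.ofReal (2 * R) * ∫⁻ a : ℝ, g !₂[a, 0] := by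
    calc ∫⁻ x in K, g x ≤ ∫⁻ x in T, g x := lintegral_mono_set hKT
      _ = ∫⁻ x, T.indicator g x := (lintegral_indicator hTm _).symm
      _ = ∫⁻ a : ℝ, ∫⁻ b : ℝ, T.indicator g !₂[a, b] := lintegral_E2 _ (hg.indicator hTm)
      _ ≤ ∫⁻ a : ℝ, ENNReal.ofReal (2 * R) * g !₂[a, 0] := by
          refine lintegral_mono fun a => ?_
          calc ∫⁻ b : ℝ, T.indicator g !₂[a, b]
              ≤ ∫⁻ b : ℝ, (Icc (-R) R).indicator (fun _ => g !₂[a, 0]) b := by
                refine lintegral_mono fun b => ?_
                by_cases hb : |b| ≤ R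
                · have h1 : b ∈ Icc (-R) R := abs_le.1 hb
                  rw [indicator_of_mem h1]
                  refine le_trans (indicator_le_self _ _ _) ?_
                  apply hBD
                  intro i
                  fin_cases i <;> simp
                · have h1 : (!₂[a, b] : EuclideanSpace ℝ (Fin 2)) ∉ T := by
                    simpa [hT] using hb
                  rw [indicator_of_notMem h1]
                  exact zero_le
            _ = ENNReal.ofReal (2 * R) * g !₂[a, 0] := by
                rw [lintegral_indicator measurableSet_Icc, setLIntegral_const, Real.volume_Icc,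
                  mul_comm]
                congr 2
                ring
      _ = ENNReal.ofReal (2 * R) * ∫⁻ a : ℝ, g !₂[a, 0] := lintegral_const_mul _ hma
  have hne : ∫⁻ x in K, g x ≠ ∞ :=
    ne_top_of_le_ne_top (ENNReal.mul_ne_top ENNReal.ofReal_ne_top hfin) hle
  exact integrable_toReal_of_lintegral_ne_top hg.aemeasurable hne

end P137
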