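import Vale.Agent.Lib.P137.BD.DQGen
import Vale.Agent.Lib.P137.BD.LocInt2
import Vale.Agent.Lib.P137.DQ
import Vale.Agent.Lib.P137.LocInt

/-!
# P137 / BD: the variation bound for block-decreasing input in the plane
-/

namespace P137

open MeasureTheory Metric Set
open scoped ENNReal NNReal

theorem BD_full (f : EuclideanSpace ℝ (Fin 2) → ℝ≥0∞) (hf : Measurable f)
    (hBD : ∀ x y : EuclideanSpace ℝ (Fin 2), (∀ i, |x i| ≤ |y i|) → f y ≤ f x)
    (hint : ∫⁻ x, f x ≠ ∞) (V : ℝ≥0)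
    (hV : ∀ h : EuclideanSpace ℝ (Fin 2),
      ∫⁻ x, ((f x - f (x + h)) + (f (x + h) - f x)) ≤ V * ENNReal.ofReal ‖h‖) :
    LocallyIntegrable (fun x => (maxFun f x).toReal) volume ∧
    ∀ φ : EuclideanSpace ℝ (Fin 2) → EuclideanSpace ℝ (Fin 2), ContDiff ℝ 1 φ →
      HasCompactSupport φ → (∀ x, ‖φ x‖ ≤ 1) →
      ∫ x, (maxFun f x).toReal *
          ∑ i : Fin 2, (fderiv ℝ φ x (EuclideanSpace.single i 1)) i ≤ 224 * V := by
  have hfin : ∫⁻ a : ℝ, maxFun f !₂[a, 0] ≠ ∞ := by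
    refine ne_top_of_le_ne_top ?_ (axis_le f hf hBD hint V hV)
    exact ENNReal.mul_ne_top (by simp) (by simp)
  have hu := BD_locallyIntegrable (maxFun f) (measurable_maxFun f hf) (maxFun_BD f hf hBD) hfin
  refine ⟨hu, fun φ hφ hφc hφ1 => ?_⟩
  set c : ℝ≥0 := 112 * V with hc
  have hcE : (c : ℝ≥0∞) = 112 * V := by
    rw [hc]; push_cast; ring
  have hcR : (c : ℝ) = 112 * V := by
    rw [hc]; push_cast; ring
  have h := integral_mul_div_le _ hu c (NNReal.coe_nonneg c) (fun h => ?_) φ hφ hφc hφ1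
  · refine le_trans h (le_of_eq ?_)
    rw [hcR]; push_cast; ring
  · calc ∫⁻ x, ENNReal.ofReal |(maxFun f (x + h)).toReal - (maxFun f x).toReal|
        ≤ ∫⁻ x, ((maxFun f x - maxFun f (x + h)) + (maxFun f (x + h) - maxFun f x)) := by
          refine lintegral_mono fun x => ?_
          exact le_trans (ofReal_abs_toReal_sub_le _ _) (le_of_eq (add_comm _ _))
      _ ≤ 112 * V * ENNReal.ofReal ‖h‖ := BD_dq f hf hBD hint V hV h
      _ = ENNReal.ofReal (c * ‖h‖) := by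
          rw [ENNReal.ofReal_mul (NNReal.coe_nonneg c), ENNReal.ofReal_coe_nnreal, hcE]

end P137
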