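import Vale.Agent.Lib.P137.BD.DQGen
import Vale.Agent.Lib.P137.LocInt
import Vale.Agent.Lib.P137.Lip
import Vale.Agent.Lib.P137.C1DQ
import Vale.Agent.Lib.P137.FatouGrad

/-!
# P137 / BD: the gradient bound of Q1 for `C¹` Lipschitz block-decreasing input in the plane
-/

namespace P137

open MeasureTheory Metric Set
open scoped ENNReal NNReal

theorem BD_gradient_bound (f : EuclideanSpace ℝ (Fin 2) → ℝ)
    (hBD : ∀ x y : EuclideanSpace ℝ (Fin 2), (∀ i, |x i| ≤ |y i|) → f y ≤ f x)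
    (hC1 : ContDiff ℝ 1 f) (L : ℝ≥0) (hL : LipschitzWith L f) (hint : Integrable f volume) :
    (∀ x, maxFun (fun z => ENNReal.ofReal (f z)) x ≠ ∞) ∧
    LipschitzWith L (fun x => (maxFun (fun z => ENNReal.ofReal (f z)) x).toReal) ∧
    ∫⁻ x, ‖fderiv ℝ (fun x => (maxFun (fun z => ENNReal.ofReal (f z)) x).toReal) x‖ₑ ≤
      224 * ∫⁻ x, ‖fderiv ℝ f x‖ₑ := by
  have hg : ∀ x y : EuclideanSpace ℝ (Fin 2), (∀ i, |x i| ≤ |y i|) →
      ENNReal.ofReal (f y) ≤ ENNReal.ofReal (f x) := fun x y hxy =>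
    ENNReal.ofReal_le_ofReal (hBD x y hxy)
  have hgm : Measurable (fun z : EuclideanSpace ℝ (Fin 2) => ENNReal.ofReal (f z)) :=
    ENNReal.measurable_ofReal.comp hC1.continuous.measurable
  have hint' : ∫⁻ x : EuclideanSpace ℝ (Fin 2), ENNReal.ofReal (f x) ≠ ∞ :=
    hint.lintegral_lt_top.ne
  have hfin : ∀ x, maxFun (fun z : EuclideanSpace ℝ (Fin 2) => ENNReal.ofReal (f z)) x ≠ ∞ := by
    intro x
    refine ne_top_of_le_ne_top (ENNReal.ofReal_ne_top (r := f 0)) ?_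
    refine maxFun_le_const _ _ (fun z => hg 0 z (fun i => ?_)) x
    simp
  have hLip := lipschitzWith_maxFun_toReal f L hL hfin
  refine ⟨hfin, hLip, ?_⟩
  have hV : ∀ h : EuclideanSpace ℝ (Fin 2),
      ∫⁻ x : EuclideanSpace ℝ (Fin 2),
        ((ENNReal.ofReal (f x) - ENNReal.ofReal (f (x + h))) +
          (ENNReal.ofReal (f (x + h)) - ENNReal.ofReal (f x))) ≤
        (∫⁻ x, ‖fderiv ℝ f x‖ₑ) * ENNReal.ofReal ‖h‖ := by
    intro h
    refine le_trans (lintegral_mono fun x => ?_) (dq_of_contDiff _ hC1 h)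
    exact ofReal_sub_add_le _ _
  have hdq : ∀ h : EuclideanSpace ℝ (Fin 2),
      ∫⁻ x, ENNReal.ofReal
        |(maxFun (fun z : EuclideanSpace ℝ (Fin 2) => ENNReal.ofReal (f z)) (x + h)).toReal -
          (maxFun (fun z : EuclideanSpace ℝ (Fin 2) => ENNReal.ofReal (f z)) x).toReal| ≤
      (112 * ∫⁻ x, ‖fderiv ℝ f x‖ₑ) * ENNReal.ofReal ‖h‖ := by
    intro h
    refine le_trans (lintegral_mono fun x => ?_)
      (BD_dq (fun z => ENNReal.ofReal (f z)) hgm hg hint' _ hV h)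
    exact le_trans (ofReal_abs_toReal_sub_le _ _) (le_of_eq (add_comm _ _))
  refine le_trans (lintegral_fderiv_le_of_dq _ hLip.continuous _ hdq) (le_of_eq ?_)
  push_cast
  ring

end P137
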