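import Mathlib

/-!
# P137 / BD-L1: the kernel `∫ over |c| > m of c⁻² dc = 2 / m`

Blueprint. `{c | m < |c|} = Iio (-m) ∪ Ioi m` disjointly; on `Ioi m`: `∫⁻ c in Ioi m, ofReal (c ^ (-2 : ℝ)) = ofReal (m⁻¹)` (`integral_Ioi_rpow_of_lt`, `integrableOn_Ioi_rpow_of_lt`, `ofReal_integral_eq_lintegral_ofReal`), and
`(ofReal |c|)⁻¹ * (ofReal |c|)⁻¹ = ofReal (c ^ (-2 : ℝ))` for `c > 0`; the part `Iio (-m)` is the reflection `c ↦ -c` (`lintegral_comp_neg`-type lemma, `Measure.IsNegInvariant`).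
-/

namespace P137

open MeasureTheory Metric Set
open scoped ENNReal

theorem kernel_le (m : ℝ) (hm : 0 < m) :
    ∫⁻ c in {c : ℝ | m < |c|}, (ENNReal.ofReal |c|)⁻¹ * (ENNReal.ofReal |c|)⁻¹ ≤
      2 * (ENNReal.ofReal m)⁻¹ := by
  set f : ℝ → ℝ≥0∞ := fun c => (ENNReal.ofReal |c|)⁻¹ * (ENNReal.ofReal |c|)⁻¹ with hf
  have hfm : Measurable f := by
    have h1 : Measurable fun c : ℝ => (ENNReal.ofReal |c|)⁻¹ :=
      (ENNReal.measurable_ofReal.comp (continuous_abs.measurable)).inv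
    exact h1.mul h1
  have hpos : ∫⁻ c in Ioi m, f c = ENNReal.ofReal (m⁻¹) := by
    have h1 : ∫⁻ c in Ioi m, f c = ∫⁻ c in Ioi m, ENNReal.ofReal (c ^ (-2 : ℝ)) := by
      refine setLIntegral_congr_fun measurableSet_Ioi fun c hc => ?_
      have hc0 : 0 < c := lt_trans hm hc
      simp only [hf]
      rw [abs_of_pos hc0, ← ENNReal.ofReal_inv_of_pos hc0,
        ← ENNReal.ofReal_mul (inv_nonneg.2 hc0.le)]
      congr 1
      rw [Real.rpow_neg hc0.le, Real.rpow_two]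
      field_simp
    have h2 : (0 : ℝ → ℝ) ≤ᵐ[volume.restrict (Ioi m)] fun c => c ^ (-2 : ℝ) := by
      filter_upwards [ae_restrict_mem measurableSet_Ioi] with c hc
      exact Real.rpow_nonneg (lt_trans hm hc).le _
    rw [h1, ← ofReal_integral_eq_lintegral_ofReal
      (integrableOn_Ioi_rpow_of_lt (by norm_num) hm) h2,
      integral_Ioi_rpow_of_lt (by norm_num) hm]
    congr 1
    have e : (-2 : ℝ) + 1 = -1 := by norm_num
    rw [e, Real.rpow_neg_one]
    ring
  have hneg : ∫⁻ c in Iio (-m), f c = ∫⁻ c in Ioi m, f c := by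
    have h := (Measure.measurePreserving_neg (volume : Measure ℝ)).setLIntegral_comp_preimage
      (measurableSet_Ioi (a := m)) hfm
    have hpre : (Neg.neg : ℝ → ℝ) ⁻¹' Ioi m = Iio (-m) := by
      ext c
      simp
    rw [hpre] at h
    rw [← h]
    refine lintegral_congr fun c => ?_
    simp [hf]
  have hsub : {c : ℝ | m < |c|} ⊆ Iio (-m) ∪ Ioi m := by
    intro c hc
    have hc' : m < |c| := hc
    rcases lt_abs.1 hc' with h | h
    · right
      exact h
    · left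
      show c < -m
      linarith
  calc ∫⁻ c in {c : ℝ | m < |c|}, f c ≤ ∫⁻ c in Iio (-m) ∪ Ioi m, f c :=
        lintegral_mono_set hsub
    _ ≤ (∫⁻ c in Iio (-m), f c) + ∫⁻ c in Ioi m, f c := lintegral_union_le _ _ _
    _ = 2 * (ENNReal.ofReal m)⁻¹ := by
        rw [hneg, hpos, ENNReal.ofReal_inv_of_pos hm, two_mul]

end P137
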