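import Vale.Agent.Lib.P137.BD.Transfer
import Vale.Agent.Lib.P137.BD.Defs2

/-!
# P137 / BD-J: averages over large balls centred on the horizontal axis

Blueprint. As in `PointSmall.lean`: `∫⁻ y in ball c r, f y = ∫⁻ y₁, ∫⁻ y₂, indicator (ball c r) f !₂[y₁, y₂]`, `c = !₂[a, 0]`; on the ball `|y₁| < |a| + r < 3 * r` and `|y₂| < r < 3 * r`, so the integral is
`≤ ∫⁻ y₁ in Ioo (-(3 * r)) (3 * r), ∫⁻ y₂ in Ioo (-(3 * r)) (3 * r), f !₂[y₁, y₂] = ofReal (3 * r) ^ 2 * sqav f (3 * r)`. `volume (ball c r) = ofReal r ^ 2 * π` (`EuclideanSpace.volume_ball_fin_two`) and `9 / π ≤ 3` (`Real.pi_gt_three`).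
-/

namespace P137

open MeasureTheory Metric Set
open scoped ENNReal

private lemma mem_ball_coord {a r y₁ y₂ : ℝ}
    (h : (!₂[y₁, y₂] : EuclideanSpace ℝ (Fin 2)) ∈ ball (!₂[a, 0] : EuclideanSpace ℝ (Fin 2)) r) :
    |y₁ - a| < r ∧ |y₂| < r := by
  rw [mem_ball, dist_eq_norm] at h
  have h0 := PiLp.norm_apply_le ((!₂[y₁, y₂] : EuclideanSpace ℝ (Fin 2)) - !₂[a, 0]) 0
  have h1 := PiLp.norm_apply_le ((!₂[y₁, y₂] : EuclideanSpace ℝ (Fin 2)) - !₂[a, 0]) 1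
  simp only [PiLp.sub_apply, Real.norm_eq_abs] at h0 h1
  simp at h0 h1
  exact ⟨lt_of_le_of_lt h0 h, lt_of_le_of_lt h1 h⟩

theorem avg_large_le (f : EuclideanSpace ℝ (Fin 2) → ℝ≥0∞) (hf : Measurable f)
    (a r : ℝ) (hr : 0 < r) (hra : |a| / 2 < r) :
    (volume (ball (!₂[a, 0] : EuclideanSpace ℝ (Fin 2)) r))⁻¹ *
        ∫⁻ y in ball (!₂[a, 0] : EuclideanSpace ℝ (Fin 2)) r, f y ≤
      3 * sqav f (3 * r) := by
  have hint : ∫⁻ y in ball (!₂[a, 0] : EuclideanSpace ℝ (Fin 2)) r, f y ≤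
      ∫⁻ y₁ in Ioo (-(3 * r)) (3 * r), ∫⁻ y₂ in Ioo (-(3 * r)) (3 * r), f !₂[y₁, y₂] := by
    rw [← lintegral_indicator measurableSet_ball, lintegral_E2 _ (hf.indicator measurableSet_ball),
      ← lintegral_indicator measurableSet_Ioo]
    apply lintegral_mono
    intro y₁
    show ∫⁻ y₂ : ℝ, (ball (!₂[a, 0] : EuclideanSpace ℝ (Fin 2)) r).indicator f !₂[y₁, y₂] ≤
      (Ioo (-(3 * r)) (3 * r)).indicator
        (fun y₁ => ∫⁻ y₂ in Ioo (-(3 * r)) (3 * r), f !₂[y₁, y₂]) y₁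
    by_cases h1 : y₁ ∈ Ioo (-(3 * r)) (3 * r)
    · rw [indicator_of_mem h1, ← lintegral_indicator measurableSet_Ioo]
      apply lintegral_mono
      intro y₂
      show (ball (!₂[a, 0] : EuclideanSpace ℝ (Fin 2)) r).indicator f !₂[y₁, y₂] ≤
        (Ioo (-(3 * r)) (3 * r)).indicator (fun y₂ => f !₂[y₁, y₂]) y₂
      by_cases h2 : (!₂[y₁, y₂] : EuclideanSpace ℝ (Fin 2)) ∈
          ball (!₂[a, 0] : EuclideanSpace ℝ (Fin 2)) r
      · have hc := (mem_ball_coord h2).2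
        have h3 : y₂ ∈ Ioo (-(3 * r)) (3 * r) := by
          rw [abs_lt] at hc
          exact ⟨by linarith [hc.1], by linarith [hc.2]⟩
        rw [indicator_of_mem h2, indicator_of_mem h3]
      · rw [indicator_of_notMem h2]
        exact bot_le
    · rw [indicator_of_notMem h1]
      have : ∀ y₂ : ℝ, (ball (!₂[a, 0] : EuclideanSpace ℝ (Fin 2)) r).indicator f
          (!₂[y₁, y₂] : EuclideanSpace ℝ (Fin 2)) = 0 := by
        intro y₂
        apply indicator_of_notMem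
        intro h2
        apply h1
        have hc := (mem_ball_coord h2).1
        rw [abs_lt] at hc
        have ha := abs_le.1 (le_refl |a|)
        exact ⟨by linarith [hc.1, ha.1], by linarith [hc.2, ha.2]⟩
      simp only [this, lintegral_zero, le_refl]
  have hv : (volume (ball (!₂[a, 0] : EuclideanSpace ℝ (Fin 2)) r))⁻¹
      = ENNReal.ofReal ((r ^ 2 * Real.pi)⁻¹) := by
    rw [EuclideanSpace.volume_ball_fin_two,
      ENNReal.ofReal_inv_of_pos (by positivity), ENNReal.ofReal_mul (by positivity),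
      ENNReal.ofReal_pow hr.le]
  have hi : (ENNReal.ofReal (3 * r))⁻¹ = ENNReal.ofReal ((3 * r)⁻¹) :=
    (ENNReal.ofReal_inv_of_pos (by positivity)).symm
  have h3' : (3 : ℝ≥0∞) = ENNReal.ofReal 3 := by norm_num
  have h3 : (3 : ℝ≥0∞) * ((ENNReal.ofReal (3 * r))⁻¹ * (ENNReal.ofReal (3 * r))⁻¹)
      = ENNReal.ofReal (3 * ((3 * r)⁻¹ * (3 * r)⁻¹)) := by
    rw [hi, h3', ← ENNReal.ofReal_mul (by positivity), ← ENNReal.ofReal_mul (by norm_num)]
  unfold sqav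
  rw [← mul_assoc, h3, hv]
  refine mul_le_mul' (ENNReal.ofReal_le_ofReal ?_) hint
  have hp := Real.pi_gt_three
  have e : 3 * ((3 * r)⁻¹ * (3 * r)⁻¹) = (r ^ 2 * 3)⁻¹ := by
    field_simp
    try ring
  rw [e]
  apply inv_anti₀ (by positivity)
  nlinarith [sq_nonneg r, pow_pos hr 2]

end P137
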