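import Vale.Agent.Lib.P137.BD.OneD

/-!
# P137 / BD-H: averages of an even unimodal function over centred intervals are nonincreasing

Blueprint. For `r > 0`: `∫⁻ s in Ioo (-r) r, ψ s = ofReal r * ∫⁻ u in Ioo (-1) 1, ψ (r * u)` (change of variables `s = r * u`: `Measure.map_addHaar_smul` on `ℝ` / `lintegral_map`, as in `Scale.lean` and `Avg.lean`; `Real.volume`-lemmas such as
`Real.map_volume_mul_left`), and `ψ (r' * u) ≤ ψ (r * u)` since `|r * u| ≤ |r' * u|`.
-/

namespace P137

open MeasureTheory Metric Set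
open scoped ENNReal

theorem unimodal_avg_anti (ψ : ℝ → ℝ≥0∞) (hψ : ∀ s s' : ℝ, |s| ≤ |s'| → ψ s' ≤ ψ s) {r r' : ℝ}
    (hr : 0 < r) (hrr' : r ≤ r') :
    (ENNReal.ofReal r')⁻¹ * ∫⁻ s in Ioo (-r') r', ψ s ≤
      (ENNReal.ofReal r)⁻¹ * ∫⁻ s in Ioo (-r) r, ψ s := by
  have hr' : 0 < r' := lt_of_lt_of_le hr hrr'
  have hFanti : Antitone (fun t : ℝ => ψ (max t 0)) := by
    intro t t' htt'
    apply hψ
    rw [abs_of_nonneg (le_max_right _ _), abs_of_nonneg (le_max_right _ _)]
    exact max_le_max_right 0 htt'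
  have hψeq : ψ = (fun t : ℝ => ψ (max t 0)) ∘ (fun s => |s|) := by
    funext s
    simp only [Function.comp]
    rw [max_eq_left (abs_nonneg s)]
    exact le_antisymm (hψ _ _ (by rw [abs_abs])) (hψ _ _ (by rw [abs_abs]))
  have hψm : Measurable ψ := by
    rw [hψeq]
    exact hFanti.measurable.comp continuous_abs.measurable
  set c : ℝ := r' / r with hc
  have hc0 : 0 < c := div_pos hr' hr
  have hc1 : 1 ≤ c := (one_le_div hr).2 hrr'
  have hcr : c * r = r' := by rw [hc]; field_simp
  have hg : Measurable ((Ioo (-r') r').indicator ψ) := hψm.indicator measurableSet_Ioo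
  have h1 : ∫⁻ u, (Ioo (-r') r').indicator ψ (c * u) =
      ENNReal.ofReal |c⁻¹| * ∫⁻ s, (Ioo (-r') r').indicator ψ s := by
    rw [← lintegral_map hg (measurable_const_mul c), Real.map_volume_mul_left hc0.ne',
      lintegral_smul_measure]
    rfl
  have h2 : ∀ u, (Ioo (-r') r').indicator ψ (c * u) =
      (Ioo (-r) r).indicator (fun u => ψ (c * u)) u := by
    intro u
    by_cases hu : u ∈ Ioo (-r) r
    · have hm : c * u ∈ Ioo (-r') r' := by
        constructor
        · rw [← hcr]; nlinarith [hu.1]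
        · rw [← hcr]; nlinarith [hu.2]
      rw [indicator_of_mem hu, indicator_of_mem hm]
    · have hm : c * u ∉ Ioo (-r') r' := by
        intro h
        apply hu
        rw [← hcr] at h
        constructor
        · have := h.1; nlinarith
        · have := h.2; nlinarith
      rw [indicator_of_notMem hu, indicator_of_notMem hm]
  simp only [h2] at h1
  rw [lintegral_indicator measurableSet_Ioo, lintegral_indicator measurableSet_Ioo] at h1
  have h3 : ∫⁻ u in Ioo (-r) r, ψ (c * u) ≤ ∫⁻ u in Ioo (-r) r, ψ u := by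
    refine lintegral_mono fun u => hψ _ _ ?_
    rw [abs_mul, abs_of_pos hc0]
    nlinarith [abs_nonneg u]
  have h4 : (ENNReal.ofReal r')⁻¹ = (ENNReal.ofReal r)⁻¹ * ENNReal.ofReal |c⁻¹| := by
    rw [abs_of_pos (inv_pos.2 hc0), hc, inv_div, ENNReal.ofReal_div_of_pos hr', div_eq_mul_inv,
      ← mul_assoc, ENNReal.inv_mul_cancel (by simpa using hr) ENNReal.ofReal_ne_top, one_mul]
  rw [h4, mul_assoc, ← h1]
  gcongr

end P137
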