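import Vale.Agent.Lib.P137.BD.Transfer
import Vale.Agent.Lib.P137.BD.Defs2
import Vale.Agent.Lib.P137.BD.OneDAvg

/-!
# P137 / BD-K: averages of a block-decreasing function over centred squares are nonincreasing

Blueprint. Write `sqav f ρ = (ofReal ρ)⁻¹ * ∫⁻ a in Ioo (-ρ) ρ, ((ofReal ρ)⁻¹ * ∫⁻ b in Ioo (-ρ) ρ, f !₂[a, b])` (`lintegral_const_mul'`, the constant is finite as `ρ > 0`). First, for each `a`, `unimodal_avg_anti` for `ψ b = f !₂[a, b]` gives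
`(ofReal ρ')⁻¹ * ∫⁻ b in Ioo (-ρ') ρ', .. ≤ (ofReal ρ)⁻¹ * ∫⁻ b in Ioo (-ρ) ρ, ..`. Second, `Ψ a = (ofReal ρ)⁻¹ * ∫⁻ b in Ioo (-ρ) ρ, f !₂[a, b]` satisfies `|a| ≤ |a'| → Ψ a' ≤ Ψ a` (by `hBD`, `lintegral_mono`), so `unimodal_avg_anti` applies to `Ψ`.
-/

namespace P137

open MeasureTheory Metric Set
open scoped ENNReal

theorem sqav_anti (f : EuclideanSpace ℝ (Fin 2) → ℝ≥0∞)
    (hBD : ∀ x y : EuclideanSpace ℝ (Fin 2), (∀ i, |x i| ≤ |y i|) → f y ≤ f x)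
    {ρ ρ' : ℝ} (hρ : 0 < ρ) (hρρ' : ρ ≤ ρ') : sqav f ρ' ≤ sqav f ρ := by
  have hρ' : 0 < ρ' := lt_of_lt_of_le hρ hρρ'
  have hc : (ENNReal.ofReal ρ)⁻¹ ≠ ⊤ := by
    rw [Ne, ENNReal.inv_eq_top]
    simpa using hρ
  have hc' : (ENNReal.ofReal ρ')⁻¹ ≠ ⊤ := by
    rw [Ne, ENNReal.inv_eq_top]
    simpa using hρ'
  have hform : ∀ σ : ℝ, (ENNReal.ofReal σ)⁻¹ ≠ ⊤ → sqav f σ = (ENNReal.ofReal σ)⁻¹ *
      ∫⁻ a in Ioo (-σ) σ, ((ENNReal.ofReal σ)⁻¹ * ∫⁻ b in Ioo (-σ) σ, f !₂[a, b]) := by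
    intro σ hσ
    rw [lintegral_const_mul' _ _ hσ, sqav, mul_assoc]
  have hb : ∀ a s s' : ℝ, |s| ≤ |s'| → f !₂[a, s'] ≤ f !₂[a, s] := by
    intro a s s' hs
    apply hBD
    intro i
    fin_cases i
    · simp
    · simpa using hs
  have ha : ∀ a a' b : ℝ, |a| ≤ |a'| → f !₂[a', b] ≤ f !₂[a, b] := by
    intro a a' b hs
    apply hBD
    intro i
    fin_cases i
    · simpa using hs
    · simp
  rw [hform ρ hc, hform ρ' hc']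
  calc (ENNReal.ofReal ρ')⁻¹ *
        ∫⁻ a in Ioo (-ρ') ρ', ((ENNReal.ofReal ρ')⁻¹ * ∫⁻ b in Ioo (-ρ') ρ', f !₂[a, b])
      ≤ (ENNReal.ofReal ρ')⁻¹ *
        ∫⁻ a in Ioo (-ρ') ρ', ((ENNReal.ofReal ρ)⁻¹ * ∫⁻ b in Ioo (-ρ) ρ, f !₂[a, b]) := by
        refine mul_le_mul_right (lintegral_mono fun a => ?_) _
        exact unimodal_avg_anti (fun b => f !₂[a, b]) (hb a) hρ hρρ'
    _ ≤ (ENNReal.ofReal ρ)⁻¹ *
        ∫⁻ a in Ioo (-ρ) ρ, ((ENNReal.ofReal ρ)⁻¹ * ∫⁻ b in Ioo (-ρ) ρ, f !₂[a, b]) := by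
        refine unimodal_avg_anti
          (fun a => (ENNReal.ofReal ρ)⁻¹ * ∫⁻ b in Ioo (-ρ) ρ, f !₂[a, b]) ?_ hρ hρρ'
        intro a a' haa'
        refine mul_le_mul_right (lintegral_mono fun b => ?_) _
        exact ha a a' b haa'

end P137
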