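import Vale.Agent.Lib.P137.BD.PointSmall
import Vale.Agent.Lib.P137.BD.PointLarge
import Vale.Agent.Lib.P137.BD.SqAnti

/-!
# P137 / BD-N1: the pointwise bound on the horizontal axis

Blueprint. `unfold maxFun`, `iSup_le`, fix `r > 0`. If `r ≤ |a| / 2`: `avg_small_le`, then the right side is one of the terms of the supremum `P2 f (a / 2)` (`le_iSup` with `⟨r, hr⟩`), `le_add_right`. Otherwise `avg_large_le` and `sqav_anti` with `0 < |a| ≤ 3 * r`.
-/

namespace P137

open MeasureTheory Metric Set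
open scoped ENNReal

theorem maxFun_axis_le (f : EuclideanSpace ℝ (Fin 2) → ℝ≥0∞) (hf : Measurable f)
    (hBD : ∀ x y : EuclideanSpace ℝ (Fin 2), (∀ i, |x i| ≤ |y i|) → f y ≤ f x)
    (a : ℝ) (ha : a ≠ 0) :
    maxFun f !₂[a, 0] ≤ P2 f (a / 2) + 3 * sqav f |a| := by
  unfold maxFun
  refine iSup_le (fun r => ?_)
  obtain ⟨r, hr⟩ := r
  have ha' : 0 < |a| := abs_pos.mpr ha
  rcases le_or_gt r (|a| / 2) with h | h
  · refine (avg_small_le f hf hBD a r hr h).trans ?_
    refine le_trans ?_ (le_add_right (le_refl _))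
    unfold P2
    exact le_iSup (fun r : {r : ℝ // 0 < r} =>
      (ENNReal.ofReal r.1)⁻¹ * ∫⁻ b in Ioo (-r.1) r.1, f !₂[a / 2, b]) ⟨r, hr⟩
  · refine (avg_large_le f hf a r hr h).trans ?_
    refine le_trans ?_ (le_add_left (le_refl _))
    have h3 : sqav f (3 * r) ≤ sqav f |a| := sqav_anti f hBD ha' (by linarith)
    gcongr

end P137
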