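import Vale.Agent.Lib.P137.BD.Transfer
import Vale.Agent.Lib.P137.BD.Defs2
import Vale.Agent.Lib.P137.BD.OneDAvg

/-!
# P137 / BD-M: the integral of `P2 f`

Blueprint. Put `A n a = (ofReal (1 / (n + 1)))⁻¹ * ∫⁻ b in Ioo (-(1 / (n + 1))) (1 / (n + 1)), f !₂[a, b]`. By `unimodal_avg_anti` (`ψ b = f !₂[a, b]`), `A n a` is monotone in `n` and every term of the supremum defining `P2 f a` is `≤ A n a` for `n` with `1 / (n + 1) ≤ r`
(`exists_nat_one_div_lt`), so `P2 f a = ⨆ n, A n a`. `A n` is measurable (`Measurable.lintegral_prod_right'`, `measurable_pt`, restricted measure or indicator). `lintegral_iSup`: `∫⁻ P2 f = ⨆ n, ∫⁻ A n`, and `∫⁻ A n = (ofReal r)⁻¹ * ∫⁻ a, ∫⁻ b in Ioo (-r) r, .. ≤ (ofReal r)⁻¹ * (W * ofReal r) ≤ W`.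
-/

namespace P137

open MeasureTheory Metric Set
open scoped ENNReal

/-- the averages over the intervals of half-length `1 / (n + 1)` -/
private noncomputable def avgN (f : EuclideanSpace ℝ (Fin 2) → ℝ≥0∞) (n : ℕ) (a : ℝ) : ℝ≥0∞ :=
  (ENNReal.ofReal (1 / ((n : ℝ) + 1)))⁻¹ *
    ∫⁻ b in Ioo (-(1 / ((n : ℝ) + 1))) (1 / ((n : ℝ) + 1)), f !₂[a, b]

private theorem slice_anti (f : EuclideanSpace ℝ (Fin 2) → ℝ≥0∞)
    (hBD : ∀ x y : EuclideanSpace ℝ (Fin 2), (∀ i, |x i| ≤ |y i|) → f y ≤ f x) (a : ℝ) :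
    ∀ s s' : ℝ, |s| ≤ |s'| → f !₂[a, s'] ≤ f !₂[a, s] := by
  intro s s' h
  apply hBD
  intro i
  fin_cases i
  · simp
  · simpa using h

private theorem pos_inv (n : ℕ) : (0 : ℝ) < 1 / ((n : ℝ) + 1) := by positivity

private theorem P2_eq (f : EuclideanSpace ℝ (Fin 2) → ℝ≥0∞)
    (hBD : ∀ x y : EuclideanSpace ℝ (Fin 2), (∀ i, |x i| ≤ |y i|) → f y ≤ f x) (a : ℝ) :
    P2 f a = ⨆ n : ℕ, avgN f n a := by
  apply le_antisymm
  · unfold P2
    refine iSup_le fun r => ?_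
    obtain ⟨n, hn⟩ := exists_nat_one_div_lt r.2
    refine le_trans ?_ (le_iSup (fun n : ℕ => avgN f n a) n)
    exact unimodal_avg_anti (fun b => f !₂[a, b]) (slice_anti f hBD a) (pos_inv n) hn.le
  · refine iSup_le fun n => ?_
    unfold P2
    exact le_iSup (fun r : {r : ℝ // 0 < r} =>
      (ENNReal.ofReal r.1)⁻¹ * ∫⁻ b in Ioo (-r.1) r.1, f !₂[a, b]) ⟨1 / ((n : ℝ) + 1), pos_inv n⟩

private theorem measurable_inner (f : EuclideanSpace ℝ (Fin 2) → ℝ≥0∞) (hf : Measurable f)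
    (t : ℝ) : Measurable (fun a : ℝ => ∫⁻ b in Ioo (-t) t, f !₂[a, b]) :=
  (hf.comp measurable_pt).lintegral_prod_right'

private theorem measurable_avgN (f : EuclideanSpace ℝ (Fin 2) → ℝ≥0∞) (hf : Measurable f)
    (n : ℕ) : Measurable (avgN f n) :=
  (measurable_inner f hf _).const_mul _

private theorem monotone_avgN (f : EuclideanSpace ℝ (Fin 2) → ℝ≥0∞)
    (hBD : ∀ x y : EuclideanSpace ℝ (Fin 2), (∀ i, |x i| ≤ |y i|) → f y ≤ f x) :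
    Monotone (avgN f) := by
  intro n m hnm a
  have h1 : 1 / ((m : ℝ) + 1) ≤ 1 / ((n : ℝ) + 1) := by
    apply one_div_le_one_div_of_le (by positivity)
    have : (n : ℝ) ≤ m := by exact_mod_cast hnm
    linarith
  exact unimodal_avg_anti (fun b => f !₂[a, b]) (slice_anti f hBD a) (pos_inv m) h1

theorem lintegral_P2_le (f : EuclideanSpace ℝ (Fin 2) → ℝ≥0∞) (hf : Measurable f)
    (hBD : ∀ x y : EuclideanSpace ℝ (Fin 2), (∀ i, |x i| ≤ |y i|) → f y ≤ f x) (W : ℝ≥0∞)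
    (hW : ∀ t : ℝ, 0 < t → ∫⁻ a : ℝ, ∫⁻ b in Ioo (-t) t, f !₂[a, b] ≤ W * ENNReal.ofReal t) :
    ∫⁻ a : ℝ, P2 f a ≤ W := by
  have h1 : ∫⁻ a : ℝ, P2 f a = ∫⁻ a : ℝ, ⨆ n : ℕ, avgN f n a :=
    lintegral_congr fun a => P2_eq f hBD a
  rw [h1, lintegral_iSup (measurable_avgN f hf) (monotone_avgN f hBD)]
  refine iSup_le fun n => ?_
  unfold avgN
  rw [lintegral_const_mul _ (measurable_inner f hf _)]
  have hc0 : ENNReal.ofReal (1 / ((n : ℝ) + 1)) ≠ 0 := by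
    simpa using pos_inv n
  calc (ENNReal.ofReal (1 / ((n : ℝ) + 1)))⁻¹ *
        ∫⁻ a : ℝ, ∫⁻ b in Ioo (-(1 / ((n : ℝ) + 1))) (1 / ((n : ℝ) + 1)), f !₂[a, b]
      ≤ (ENNReal.ofReal (1 / ((n : ℝ) + 1)))⁻¹ * (W * ENNReal.ofReal (1 / ((n : ℝ) + 1))) := by
        gcongr
        exact hW _ (pos_inv n)
    _ = W * ((ENNReal.ofReal (1 / ((n : ℝ) + 1)))⁻¹ * ENNReal.ofReal (1 / ((n : ℝ) + 1))) := by
        ring
    _ = W := by
        rw [ENNReal.inv_mul_cancel hc0 ENNReal.ofReal_ne_top, mul_one]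

theorem measurable_P2 (f : EuclideanSpace ℝ (Fin 2) → ℝ≥0∞) (hf : Measurable f)
    (hBD : ∀ x y : EuclideanSpace ℝ (Fin 2), (∀ i, |x i| ≤ |y i|) → f y ≤ f x) :
    Measurable (P2 f) := by
  have h1 : P2 f = fun a => ⨆ n : ℕ, avgN f n a := funext fun a => P2_eq f hBD a
  rw [h1]
  exact Measurable.iSup (measurable_avgN f hf)

end P137
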