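import Vale.Agent.Lib.P137.BD.Transfer
import Vale.Agent.Lib.P137.BD.Defs2
import Vale.Agent.Lib.P137.BD.Kernel

/-!
# P137 / BD-L: integrating the square averages

Blueprint. With `k c = (ofReal |c|)⁻¹ * (ofReal |c|)⁻¹` and `F a b = f !₂[a, b]` (jointly measurable by `measurable_pt`):
`∫⁻ c, sqav f |c| = ∫⁻ c, ∫⁻ a, ∫⁻ b, indicator {|a| < |c| ∧ |b| < |c|} (k c * F a b)` (`a ∈ Ioo (-|c|) |c| ↔ |a| < |c|`: `abs_lt`). Pointwise
`indicator {|a| < |c| ∧ |b| < |c|} ≤ indicator {|b| < |a| ∧ |a| < |c|} + indicator {|a| ≤ |b| ∧ |b| < |c|}`. Move the integral in `c` inside (`lintegral_lintegral_swap` twice). In the first term, for `a ≠ 0`, `∫⁻ c in {|a| < |c|}, k c ≤ 2 * (ofReal |a|)⁻¹` (`kernel_le`;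
for `a = 0` the condition `|b| < |a|` is empty), giving `2 * ∫⁻ a, (ofReal |a|)⁻¹ * ∫⁻ b in Ioo (-|a|) |a|, F a b`. In the second term, for `b ≠ 0` use `kernel_le` with `m = |b|`; `b = 0` is a null set (or: `(ofReal 0)⁻¹ = ∞` makes the bound trivial unless the inner integral vanishes), and swap `a`, `b`.
-/

namespace P137

open MeasureTheory Metric Set
open scoped ENNReal

/-- the kernel `c⁻²` -/
noncomputable def kk (c : ℝ) : ℝ≥0∞ := (ENNReal.ofReal |c|)⁻¹ * (ENNReal.ofReal |c|)⁻¹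

lemma measurable_kk : Measurable kk := by
  unfold kk
  fun_prop

lemma kernel_mul_le (m : ℝ) (hm : 0 ≤ m) (t : ℝ≥0∞) :
    ∫⁻ c in {c : ℝ | m < |c|}, kk c * t ≤ 2 * (ENNReal.ofReal m)⁻¹ * t := by
  rw [lintegral_mul_const _ measurable_kk]
  rcases hm.lt_or_eq with h | h
  · have h1 := kernel_le m h
    unfold kk
    gcongr
  · subst h
    by_cases ht : t = 0
    · simp [ht]
    · simp [ENNReal.mul_top, ENNReal.top_mul, ht]

lemma tonelli3 (H : ℝ × ℝ × ℝ → ℝ≥0∞) (hH : Measurable H) :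
    ∫⁻ c, ∫⁻ a, ∫⁻ b, H (c, a, b) = ∫⁻ a, ∫⁻ b, ∫⁻ c, H (c, a, b) := by
  have h1 : Measurable (fun p : ℝ × ℝ => ∫⁻ b, H (p.1, p.2, b)) := by
    have h0 : Measurable (fun z : (ℝ × ℝ) × ℝ => H (z.1.1, z.1.2, z.2)) :=
      hH.comp (by fun_prop)
    exact h0.lintegral_prod_right'
  rw [lintegral_lintegral_swap (f := fun c a => ∫⁻ b, H (c, a, b)) h1.aemeasurable]
  refine lintegral_congr fun a => ?_
  have h2 : Measurable (fun p : ℝ × ℝ => H (p.1, a, p.2)) := hH.comp (by fun_prop)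
  exact lintegral_lintegral_swap (f := fun c b => H (c, a, b)) h2.aemeasurable

theorem lintegral_sqav_le (f : EuclideanSpace ℝ (Fin 2) → ℝ≥0∞) (hf : Measurable f) :
    ∫⁻ c : ℝ, sqav f |c| ≤
      2 * (∫⁻ a : ℝ, (ENNReal.ofReal |a|)⁻¹ * ∫⁻ b in Ioo (-|a|) |a|, f !₂[a, b]) +
      2 * (∫⁻ b : ℝ, (ENNReal.ofReal |b|)⁻¹ * ∫⁻ a in Icc (-|b|) |b|, f !₂[a, b]) := by
  set F : ℝ → ℝ → ℝ≥0∞ := fun a b => f !₂[a, b] with hFdef
  have hF : Measurable (fun p : ℝ × ℝ => F p.1 p.2) := hf.comp measurable_pt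
  have hFa : ∀ a, Measurable (fun b => F a b) := fun a =>
    hF.comp (measurable_const.prodMk measurable_id)
  have hFb : ∀ b, Measurable (fun a => F a b) := fun b =>
    hF.comp (measurable_id.prodMk measurable_const)
  -- the triple integrand
  let SH : Set (ℝ × ℝ × ℝ) := {p | |p.2.1| < |p.1|} ∩ {p | |p.2.2| < |p.1|}
  have hSH : MeasurableSet SH :=
    (measurableSet_lt (by fun_prop) (by fun_prop)).inter
      (measurableSet_lt (by fun_prop) (by fun_prop))
  let H : ℝ × ℝ × ℝ → ℝ≥0∞ := SH.indicator (fun p => kk p.1 * F p.2.1 p.2.2)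
  have hH : Measurable H :=
    Measurable.indicator ((measurable_kk.comp measurable_fst).mul (hF.comp measurable_snd)) hSH
  have hHin : ∀ c a b, |a| < |c| → |b| < |c| → H (c, a, b) = kk c * F a b := by
    intro c a b h1 h2
    exact Set.indicator_of_mem (show (c, a, b) ∈ SH from ⟨h1, h2⟩) _
  have hHle : ∀ c a b, H (c, a, b) ≤ kk c * F a b := by
    intro c a b
    exact Set.indicator_le_self _ _ _
  have hHout1 : ∀ c a b, ¬ |a| < |c| → H (c, a, b) = 0 := by
    intro c a b h1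
    exact Set.indicator_of_notMem (fun h : (c, a, b) ∈ SH => h1 h.1) _
  have hHout2 : ∀ c a b, ¬ |b| < |c| → H (c, a, b) = 0 := by
    intro c a b h1
    exact Set.indicator_of_notMem (fun h : (c, a, b) ∈ SH => h1 h.2) _
  -- step 1
  have e1 : ∀ c, sqav f |c| ≤ ∫⁻ a, ∫⁻ b, H (c, a, b) := by
    intro c
    have h0 : sqav f |c| = kk c * ∫⁻ a in Ioo (-|c|) |c|, ∫⁻ b in Ioo (-|c|) |c|, F a b := by
      unfold sqav kk
      rfl
    rw [h0, ← lintegral_indicator measurableSet_Ioo]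
    refine le_trans (lintegral_const_mul_le _ _) (lintegral_mono fun a => ?_)
    by_cases ha : a ∈ Ioo (-|c|) |c|
    · rw [Set.indicator_of_mem ha, ← lintegral_indicator measurableSet_Ioo]
      refine le_trans (lintegral_const_mul_le _ _) (lintegral_mono fun b => ?_)
      by_cases hb : b ∈ Ioo (-|c|) |c|
      · rw [Set.indicator_of_mem hb, hHin c a b (abs_lt.2 ha) (abs_lt.2 hb)]
      · rw [Set.indicator_of_notMem hb, mul_zero]
        exact zero_le
    · rw [Set.indicator_of_notMem ha, mul_zero]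
      exact zero_le
  -- the two majorants
  let SU : Set (ℝ × ℝ) := {p | |p.2| < |p.1|}
  have hSU : MeasurableSet SU := measurableSet_lt (by fun_prop) (by fun_prop)
  let U : ℝ × ℝ → ℝ≥0∞ := SU.indicator (fun p => 2 * (ENNReal.ofReal |p.1|)⁻¹ * F p.1 p.2)
  have hU : Measurable U :=
    Measurable.indicator (Measurable.mul (by fun_prop) hF) hSU
  let SV : Set (ℝ × ℝ) := {p | |p.1| ≤ |p.2|}
  have hSV : MeasurableSet SV := measurableSet_le (by fun_prop) (by fun_prop)
  let V : ℝ × ℝ → ℝ≥0∞ := SV.indicator (fun p => 2 * (ENNReal.ofReal |p.2|)⁻¹ * F p.1 p.2)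
  have hV : Measurable V :=
    Measurable.indicator (Measurable.mul (by fun_prop) hF) hSV
  -- step 3
  have hmeasc : ∀ m : ℝ, MeasurableSet {c : ℝ | m < |c|} := fun m =>
    measurableSet_lt (by fun_prop) (by fun_prop)
  have e3 : ∀ a b, ∫⁻ c, H (c, a, b) ≤ U (a, b) + V (a, b) := by
    intro a b
    by_cases hab : |b| < |a|
    · have hUab : U (a, b) = 2 * (ENNReal.ofReal |a|)⁻¹ * F a b :=
        Set.indicator_of_mem (show (a, b) ∈ SU from hab) _
      calc ∫⁻ c, H (c, a, b)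
          ≤ ∫⁻ c, {c : ℝ | |a| < |c|}.indicator (fun c => kk c * F a b) c := by
            refine lintegral_mono fun c => ?_
            by_cases hc : |a| < |c|
            · rw [Set.indicator_of_mem (show c ∈ {c : ℝ | |a| < |c|} from hc)]
              exact hHle c a b
            · rw [hHout1 c a b hc]
              exact zero_le
        _ = ∫⁻ c in {c : ℝ | |a| < |c|}, kk c * F a b := lintegral_indicator (hmeasc _) _
        _ ≤ 2 * (ENNReal.ofReal |a|)⁻¹ * F a b := kernel_mul_le _ (abs_nonneg a) _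
        _ = U (a, b) := hUab.symm
        _ ≤ U (a, b) + V (a, b) := le_self_add
    · have hVab : V (a, b) = 2 * (ENNReal.ofReal |b|)⁻¹ * F a b :=
        Set.indicator_of_mem (show (a, b) ∈ SV from not_lt.1 hab) _
      calc ∫⁻ c, H (c, a, b)
          ≤ ∫⁻ c, {c : ℝ | |b| < |c|}.indicator (fun c => kk c * F a b) c := by
            refine lintegral_mono fun c => ?_
            by_cases hc : |b| < |c|
            · rw [Set.indicator_of_mem (show c ∈ {c : ℝ | |b| < |c|} from hc)]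
              exact hHle c a b
            · rw [hHout2 c a b hc]
              exact zero_le
        _ = ∫⁻ c in {c : ℝ | |b| < |c|}, kk c * F a b := lintegral_indicator (hmeasc _) _
        _ ≤ 2 * (ENNReal.ofReal |b|)⁻¹ * F a b := kernel_mul_le _ (abs_nonneg b) _
        _ = V (a, b) := hVab.symm
        _ ≤ U (a, b) + V (a, b) := le_add_self
  -- the integrals of the majorants
  have eU : ∫⁻ a, ∫⁻ b, U (a, b)
      = 2 * ∫⁻ a : ℝ, (ENNReal.ofReal |a|)⁻¹ * ∫⁻ b in Ioo (-|a|) |a|, F a b := by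
    rw [← lintegral_const_mul' _ _ (by norm_num)]
    refine lintegral_congr fun a => ?_
    have h1 : (fun b => U (a, b))
        = (Ioo (-|a|) |a|).indicator (fun b => 2 * (ENNReal.ofReal |a|)⁻¹ * F a b) := by
      funext b
      by_cases hb : |b| < |a|
      · rw [Set.indicator_of_mem (show b ∈ Ioo (-|a|) |a| from abs_lt.1 hb)]
        exact Set.indicator_of_mem (show (a, b) ∈ SU from hb) _
      · rw [Set.indicator_of_notMem (fun h : b ∈ Ioo (-|a|) |a| => hb (abs_lt.2 h))]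
        exact Set.indicator_of_notMem (show (a, b) ∉ SU from hb) _
    rw [h1, lintegral_indicator measurableSet_Ioo, lintegral_const_mul _ (hFa a), mul_assoc]
  have eV : ∫⁻ a, ∫⁻ b, V (a, b)
      = 2 * ∫⁻ b : ℝ, (ENNReal.ofReal |b|)⁻¹ * ∫⁻ a in Icc (-|b|) |b|, F a b := by
    rw [lintegral_lintegral_swap (f := fun a b => V (a, b)) hV.aemeasurable,
      ← lintegral_const_mul' _ _ (by norm_num)]
    refine lintegral_congr fun b => ?_
    have h1 : (fun a => V (a, b))
        = (Icc (-|b|) |b|).indicator (fun a => 2 * (ENNReal.ofReal |b|)⁻¹ * F a b) := by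
      funext a
      by_cases ha : |a| ≤ |b|
      · rw [Set.indicator_of_mem (show a ∈ Icc (-|b|) |b| from abs_le.1 ha)]
        exact Set.indicator_of_mem (show (a, b) ∈ SV from ha) _
      · rw [Set.indicator_of_notMem (fun h : a ∈ Icc (-|b|) |b| => ha (abs_le.2 h))]
        exact Set.indicator_of_notMem (show (a, b) ∉ SV from ha) _
    rw [h1, lintegral_indicator measurableSet_Icc, lintegral_const_mul _ (hFb b), mul_assoc]
  calc ∫⁻ c : ℝ, sqav f |c| ≤ ∫⁻ c, ∫⁻ a, ∫⁻ b, H (c, a, b) := lintegral_mono e1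
    _ = ∫⁻ a, ∫⁻ b, ∫⁻ c, H (c, a, b) := tonelli3 H hH
    _ ≤ ∫⁻ a, ∫⁻ b, (U (a, b) + V (a, b)) :=
        lintegral_mono fun a => lintegral_mono fun b => e3 a b
    _ = ∫⁻ a, ((∫⁻ b, U (a, b)) + ∫⁻ b, V (a, b)) :=
        lintegral_congr fun a =>
          lintegral_add_left (hU.comp (measurable_const.prodMk measurable_id)) _
    _ = (∫⁻ a, ∫⁻ b, U (a, b)) + ∫⁻ a, ∫⁻ b, V (a, b) :=
        lintegral_add_left hU.lintegral_prod_right' _
    _ = _ := by rw [eU, eV]

end P137
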