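import Vale.Agent.Lib.P137.BD.Key1
import Vale.Agent.Lib.P137.BD.Tonelli
import Vale.Agent.Lib.P137.BD.P2Int
import Vale.Agent.Lib.P137.BD.Swap

/-!
# P137 / BD-N2: the integral of the maximal function along the horizontal axis

Blueprint. By `maxFun_axis_le` (a.e. `a ≠ 0`), `lintegral_mono_ae`, `lintegral_add_left` (`measurable_P2` composed with `a ↦ a / 2`), `lintegral_const_mul'`:
`∫⁻ a, maxFun f !₂[a, 0] ≤ ∫⁻ a, P2 f (a / 2) + 3 * ∫⁻ a, sqav f |a|`.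
(i) `∫⁻ a, P2 f (a / 2) = 2 * ∫⁻ a, P2 f a ≤ 2 * W` (scaling on `ℝ`: `Real.map_volume_mul_left` / `Measure.map_addHaar_smul`, `lintegral_map`; `lintegral_P2_le` with `hW2`).
(ii) `lintegral_sqav_le`. First term: for `a ≠ 0`, `(ofReal |a|)⁻¹ * ∫⁻ b in Ioo (-|a|) |a|, f !₂[a, b] ≤ P2 f a` (`le_iSup` with `r = |a|`), so it is `≤ 2 * W`. Second term: `Icc` and `Ioo` differ by a null set (`Ioo_ae_eq_Icc`, `setLIntegral_congr`), and with
`f' z = f (sw z)` one has `f !₂[a, b] = f' !₂[b, a]` (`sw_pt`), so for `b ≠ 0` the integrand is `≤ P2 f' b`; `f'` is measurable and block-decreasing (`(sw x) 0 = x 1`, `(sw x) 1 = x 0`), and `hW1` is the hypothesis of `lintegral_P2_le` for `f'`. So it is `≤ 2 * W`.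
Total `2 * W + 3 * (2 * W + 2 * W) = 14 * W`.
-/

namespace P137

open MeasureTheory Metric Set
open scoped ENNReal

theorem lintegral_maxFun_axis_le (f : EuclideanSpace ℝ (Fin 2) → ℝ≥0∞) (hf : Measurable f)
    (hBD : ∀ x y : EuclideanSpace ℝ (Fin 2), (∀ i, |x i| ≤ |y i|) → f y ≤ f x) (W : ℝ≥0∞)
    (hW2 : ∀ t : ℝ, 0 < t → ∫⁻ a : ℝ, ∫⁻ b in Ioo (-t) t, f !₂[a, b] ≤ W * ENNReal.ofReal t)
    (hW1 : ∀ t : ℝ, 0 < t → ∫⁻ b : ℝ, ∫⁻ a in Ioo (-t) t, f !₂[a, b] ≤ W * ENNReal.ofReal t) :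
    ∫⁻ a : ℝ, maxFun f !₂[a, 0] ≤ 14 * W := by
  have hne : ∀ᵐ a : ℝ, a ≠ 0 := by
    rw [ae_iff]
    simp
  have hP2 : Measurable (P2 f) := measurable_P2 f hf hBD
  have hP2' : Measurable (fun a : ℝ => P2 f (a / 2)) := hP2.comp (measurable_id.div_const 2)
  -- the swapped function
  have hf' : Measurable (fun z => f (sw z)) := hf.comp measurable_sw
  have hBD' : ∀ x y : EuclideanSpace ℝ (Fin 2), (∀ i, |x i| ≤ |y i|) →
      (fun z => f (sw z)) y ≤ (fun z => f (sw z)) x := by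
    intro x y h
    apply hBD
    intro i
    fin_cases i
    · simpa [sw] using h 1
    · simpa [sw] using h 0
  have hW' : ∀ t : ℝ, 0 < t →
      ∫⁻ a : ℝ, ∫⁻ b in Ioo (-t) t, (fun z => f (sw z)) !₂[a, b] ≤ W * ENNReal.ofReal t := by
    intro t ht
    simp only [sw_pt]
    exact hW1 t ht
  have hI1 : ∫⁻ a : ℝ, P2 f a ≤ W := lintegral_P2_le f hf hBD W hW2
  have hI2 : ∫⁻ a : ℝ, P2 (fun z => f (sw z)) a ≤ W :=
    lintegral_P2_le (fun z => f (sw z)) hf' hBD' W hW'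
  -- scaling
  have hscale : ∫⁻ a : ℝ, P2 f (a / 2) = 2 * ∫⁻ a : ℝ, P2 f a := by
    have h1 : ∫⁻ a : ℝ, P2 f (a / 2) = ∫⁻ y, P2 f y ∂(Measure.map (fun a : ℝ => 2⁻¹ * a) volume) := by
      rw [lintegral_map hP2 (measurable_const_mul _)]
      refine lintegral_congr fun a => ?_
      rw [div_eq_inv_mul]
    rw [h1, Real.map_volume_mul_left (by norm_num : (2⁻¹ : ℝ) ≠ 0), lintegral_smul_measure]
    congr 1
    simp
  -- first term
  have hT1 : ∫⁻ a : ℝ, (ENNReal.ofReal |a|)⁻¹ * ∫⁻ b in Ioo (-|a|) |a|, f !₂[a, b] ≤ W := by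
    refine le_trans (lintegral_mono_ae ?_) hI1
    filter_upwards [hne] with a ha
    unfold P2
    exact le_iSup (fun r : {r : ℝ // 0 < r} =>
      (ENNReal.ofReal r.1)⁻¹ * ∫⁻ b in Ioo (-r.1) r.1, f !₂[a, b]) ⟨|a|, abs_pos.2 ha⟩
  have hT2 : ∫⁻ b : ℝ, (ENNReal.ofReal |b|)⁻¹ * ∫⁻ a in Icc (-|b|) |b|, f !₂[a, b] ≤ W := by
    refine le_trans (lintegral_mono_ae ?_) hI2
    filter_upwards [hne] with b hb
    rw [← setLIntegral_congr (Ioo_ae_eq_Icc (μ := volume) (a := -|b|) (b := |b|))]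
    unfold P2
    have := le_iSup (fun r : {r : ℝ // 0 < r} =>
      (ENNReal.ofReal r.1)⁻¹ * ∫⁻ a in Ioo (-r.1) r.1, (fun z => f (sw z)) !₂[b, a])
      ⟨|b|, abs_pos.2 hb⟩
    simpa only [sw_pt] using this
  calc ∫⁻ a : ℝ, maxFun f !₂[a, 0]
      ≤ ∫⁻ a : ℝ, (P2 f (a / 2) + 3 * sqav f |a|) := by
        refine lintegral_mono_ae ?_
        filter_upwards [hne] with a ha
        exact maxFun_axis_le f hf hBD a ha
    _ = (∫⁻ a : ℝ, P2 f (a / 2)) + 3 * (∫⁻ a : ℝ, sqav f |a|) := by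
        rw [lintegral_add_left hP2', lintegral_const_mul' _ _ (by norm_num)]
    _ ≤ 2 * W + 3 * (2 * W + 2 * W) := by
        rw [hscale]
        gcongr
        refine le_trans (lintegral_sqav_le f hf) ?_
        gcongr
    _ = 14 * W := by ring

end P137
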