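import Vale.Agent.Lib.P137.Layer

/-!
# P137 / BD-D: even unimodal functions on the line, upper bound for translation differences

Blueprint. `unimodal_measurable`: `ψ s = Ψ |s|` with `Ψ r = ψ (max r 0)` antitone, hence measurable.
`vol_shift_le_1d`: let `S = {s | τ < ψ s}`; `s ∈ S`, `|s'| ≤ |s|` imply `s' ∈ S`. Let `D = {s | s + t ∉ S ∧ s ∈ S}`. If `D` is empty we are done. Claim: `D` has diameter `≤ |t|`, more precisely for `t ≥ 0`, any `s₁ s₂ ∈ D` satisfy `s₂ < s₁ + t`-type bounds:
`s ∈ D` forces `|s + t| > |s'|` for every `s' ∈ S`, in particular (for `t > 0`) `s + t > 0` and `s' < s + t` for all `s' ∈ D`; so with `σ = sInf D` (bounded below since `-(s + t) < s'`), `D ⊆ Icc σ (σ + t)`, of volume `t`. The case `t < 0` is symmetric (or apply the case `t > 0` to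
`s ↦ ψ (-s)`); `t = 0` gives `D = ∅`.
`unimodal_shift_le`: by `lintegral_sub_mul_eq` (`w = 1`), `∫⁻ (ψ s - ψ (s + t)) = ∫⁻ τ in Ioi 0, volume {s | ψ (s + t) ≤ ofReal τ ∧ ofReal τ < ψ s}`; the set is empty unless `ofReal τ < ψ 0` (as `ψ s ≤ ψ 0`), so the integrand is
`≤ indicator {τ | ofReal τ < ψ 0} (ofReal |t|)` and `volume {τ | 0 < τ ∧ ofReal τ < ψ 0} = ψ 0` (`layer_vol` with `b = 0`). The other term is the same with `-t` after the translation `s ↦ s - t` (`lintegral_add_right_eq_self`).
-/

namespace P137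

open MeasureTheory Metric Set
open scoped ENNReal

theorem unimodal_measurable (ψ : ℝ → ℝ≥0∞) (hψ : ∀ s s' : ℝ, |s| ≤ |s'| → ψ s' ≤ ψ s) :
    Measurable ψ := by
  have hanti : Antitone (fun r : ℝ => ψ (max r 0)) := by
    intro r r' hrr
    apply hψ
    rw [abs_of_nonneg (le_max_right _ _), abs_of_nonneg (le_max_right _ _)]
    exact max_le_max hrr le_rfl
  have heq : ψ = (fun r : ℝ => ψ (max r 0)) ∘ (fun s : ℝ => |s|) := by
    funext s
    simp only [Function.comp]
    rw [max_eq_left (abs_nonneg s)]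
    apply le_antisymm
    · apply hψ
      rw [abs_abs]
    · apply hψ
      rw [abs_abs]
  rw [heq]
  exact hanti.measurable.comp continuous_abs.measurable

theorem vol_shift_le_1d (ψ : ℝ → ℝ≥0∞) (hψ : ∀ s s' : ℝ, |s| ≤ |s'| → ψ s' ≤ ψ s) (τ : ℝ≥0∞)
    (t : ℝ) : volume {s : ℝ | ψ (s + t) ≤ τ ∧ τ < ψ s} ≤ ENNReal.ofReal |t| := by
  set D : Set ℝ := {s : ℝ | ψ (s + t) ≤ τ ∧ τ < ψ s} with hD
  have key : ∀ s ∈ D, ∀ s' ∈ D, |s'| < |s + t| := by
    intro s hs s' hs'
    by_contra hcon
    rw [not_lt] at hcon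
    have h1 := hψ _ _ hcon
    exact absurd (lt_of_lt_of_le hs'.2 (h1.trans hs.1)) (lt_irrefl _)
  have hdiff : ∀ s ∈ D, ∀ s' ∈ D, s' - s ≤ |t| := by
    intro s hs s' hs'
    rcases lt_trichotomy t 0 with ht | ht | ht
    · -- `t < 0`
      have h1 := key s' hs' s' hs'
      have h2 : s' + t < 0 := by
        by_contra hcon
        rw [not_lt] at hcon
        rw [abs_of_nonneg hcon] at h1
        have h3 : 0 ≤ s' := by linarith
        rw [abs_of_nonneg h3] at h1
        linarith
      have h4 := key s' hs' s hs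
      rw [abs_of_neg h2] at h4
      rw [abs_of_neg ht]
      have h5 := neg_abs_le s
      linarith
    · subst ht
      have h1 := key s hs s hs
      rw [add_zero] at h1
      exact absurd h1 (lt_irrefl _)
    · have h1 := key s hs s hs
      have h2 : 0 < s + t := by
        by_contra hcon
        rw [not_lt] at hcon
        rw [abs_of_nonpos hcon] at h1
        have h3 : s ≤ 0 := by linarith
        rw [abs_of_nonpos h3] at h1
        linarith
      have h4 := key s hs s' hs'
      rw [abs_of_pos h2] at h4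
      rw [abs_of_pos ht]
      have h5 := le_abs_self s'
      linarith
  by_cases hne : D.Nonempty
  · obtain ⟨s0, hs0⟩ := hne
    have hbdd : BddBelow D := ⟨s0 - |t|, fun s' hs' => by
      have := hdiff s' hs' s0 hs0
      linarith⟩
    have hsub : D ⊆ Set.Icc (sInf D) (sInf D + |t|) := by
      intro s' hs'
      refine ⟨csInf_le hbdd hs', ?_⟩
      have h1 : s' - |t| ≤ sInf D := by
        apply le_csInf ⟨s0, hs0⟩
        intro s hs
        have := hdiff s hs s' hs'
        linarith
      linarith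
    calc volume D ≤ volume (Set.Icc (sInf D) (sInf D + |t|)) := measure_mono hsub
      _ = ENNReal.ofReal |t| := by
        rw [Real.volume_Icc]
        congr 1
        ring
  · rw [Set.not_nonempty_iff_eq_empty] at hne
    rw [hne]
    simp

end P137
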