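import Vale.Agent.Lib.P137.BD.OneD

/-!
# P137 / BD-F, BD-H: even unimodal functions on the line, lower bound and averages

Blueprint for `unimodal_strip_le`. For `s > -(t / 2)` one has `|s| ≤ |s + t|`, so `ψ (s + t) ≤ ψ s`. Restrict the right side to `Ioi (-(t / 2))`: `∫⁻ s in Ioi (-(t/2)), (ψ s - ψ (s + t)) = ∫⁻ s in Ioi (-(t/2)), ψ s - ∫⁻ s in Ioi (-(t/2)), ψ (s + t)`
(`lintegral_sub`, finiteness from `hfin`), the last integral is `∫⁻ s in Ioi (t / 2), ψ s` (translation), and `Ioi (-(t/2)) = Ioc (-(t/2)) (t/2) ∪ Ioi (t/2)` disjointly; `Ioo ⊆ Ioc`.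
Blueprint for `unimodal_avg_anti`. For `r > 0`: `∫⁻ s in Ioo (-r) r, ψ s = ofReal r * ∫⁻ u in Ioo (-1) 1, ψ (r * u)` (change of variables `s = r * u`: `lintegral_comp_mul_left`-type lemma or `Measure.map_addHaar_smul` on `ℝ`, as in `Scale.lean` / `Avg.lean`), and
`ψ (r' * u) ≤ ψ (r * u)` since `|r * u| ≤ |r' * u|`.
-/

namespace P137

open MeasureTheory Metric Set
open scoped ENNReal

theorem unimodal_strip_le (ψ : ℝ → ℝ≥0∞) (hψ : ∀ s s' : ℝ, |s| ≤ |s'| → ψ s' ≤ ψ s)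
    (hfin : ∫⁻ s, ψ s ≠ ∞) (t : ℝ) (ht : 0 < t) :
    ∫⁻ s in Ioo (-(t / 2)) (t / 2), ψ s ≤ ∫⁻ s, (ψ s - ψ (s + t)) := by
  have hm : Measurable ψ := unimodal_measurable ψ hψ
  have hmt : Measurable (fun s : ℝ => ψ (s + t)) := hm.comp (measurable_id.add_const t)
  -- translation of the tail integral
  have htrans : ∫⁻ s in Ioi (-(t / 2)), ψ (s + t) = ∫⁻ s in Ioi (t / 2), ψ s := by
    rw [← lintegral_indicator measurableSet_Ioi, ← lintegral_indicator measurableSet_Ioi]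
    have h1 : ∀ s : ℝ, (Ioi (-(t / 2))).indicator (fun s => ψ (s + t)) s
        = (Ioi (t / 2)).indicator ψ (s + t) := by
      intro s
      by_cases hs : -(t / 2) < s
      · have hs' : t / 2 < s + t := by linarith
        rw [indicator_of_mem (show s ∈ Ioi (-(t / 2)) from hs),
          indicator_of_mem (show s + t ∈ Ioi (t / 2) from hs')]
      · have hs' : ¬ t / 2 < s + t := by
          intro h
          exact hs (by linarith)
        rw [indicator_of_notMem (show s ∉ Ioi (-(t / 2)) from hs),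
          indicator_of_notMem (show s + t ∉ Ioi (t / 2) from hs')]
    simp_rw [h1]
    exact lintegral_add_right_eq_self (fun s => (Ioi (t / 2)).indicator ψ s) t
  have hfinY : ∫⁻ s in Ioi (t / 2), ψ s ≠ ∞ :=
    ne_top_of_le_ne_top hfin (setLIntegral_le_lintegral _ _)
  have hle : (fun s : ℝ => ψ (s + t)) ≤ᵐ[volume.restrict (Ioi (-(t / 2)))] ψ := by
    refine (ae_restrict_iff' measurableSet_Ioi).mpr (Filter.Eventually.of_forall ?_)
    intro s hs
    have hs' : -(t / 2) < s := hs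
    apply hψ
    rw [abs_le]
    have h2 : 0 ≤ s + t := by linarith
    rw [abs_of_nonneg h2]
    constructor <;> linarith
  have hsub : ∫⁻ s in Ioi (-(t / 2)), (ψ s - ψ (s + t))
      = (∫⁻ s in Ioi (-(t / 2)), ψ s) - ∫⁻ s in Ioi (-(t / 2)), ψ (s + t) :=
    lintegral_sub hmt (by rw [htrans]; exact hfinY) hle
  have hsplit : ∫⁻ s in Ioi (-(t / 2)), ψ s
      = (∫⁻ s in Ioc (-(t / 2)) (t / 2), ψ s) + ∫⁻ s in Ioi (t / 2), ψ s := by
    rw [← Ioc_union_Ioi_eq_Ioi (show -(t / 2) ≤ t / 2 by linarith)]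
    refine lintegral_union measurableSet_Ioi ?_
    rw [Set.disjoint_left]
    intro s hs hs'
    exact absurd hs.2 (not_le.mpr hs')
  calc ∫⁻ s in Ioo (-(t / 2)) (t / 2), ψ s
      ≤ ∫⁻ s in Ioc (-(t / 2)) (t / 2), ψ s := lintegral_mono_set Ioo_subset_Ioc_self
    _ = ∫⁻ s in Ioi (-(t / 2)), (ψ s - ψ (s + t)) := by
        rw [hsub, htrans, hsplit, ENNReal.add_sub_cancel_right hfinY]
    _ ≤ ∫⁻ s, (ψ s - ψ (s + t)) := setLIntegral_le_lintegral _ _

end P137
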