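import Vale.Agent.Lib.P137.BD.Transfer
import Vale.Agent.Lib.P137.BD.Defs2

/-!
# P137 / BD-I: averages over small balls centred on the horizontal axis

Blueprint. `∫⁻ y in ball c r, f y = ∫⁻ y, indicator (ball c r) f y = ∫⁻ y₁, ∫⁻ y₂, indicator (ball c r) f !₂[y₁, y₂]` (`lintegral_E2`), `c = !₂[a, 0]`. If `!₂[y₁, y₂] ∈ ball c r` then `|y₁ - a| < r` and `|y₂| < r` (each coordinate of the difference is bounded by the norm:
`PiLp.norm_apply_le` or `EuclideanSpace.dist_eq` / `Real.sqrt`), hence `|a / 2| ≤ |y₁|` and `f !₂[y₁, y₂] ≤ f !₂[a / 2, y₂]` by `hBD`. So the integrand is `≤ indicator (Ioo (a - r) (a + r)) 1 y₁ * indicator (Ioo (-r) r) (fun b => f !₂[a / 2, b]) y₂` and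
`∫⁻ over ball ≤ ofReal (2 * r) * ∫⁻ b in Ioo (-r) r, f !₂[a / 2, b]`. `volume (ball c r) = ofReal r ^ 2 * π` (`EuclideanSpace.volume_ball_fin_two`), `2 ≤ π` (`Real.pi_gt_three`): `(ofReal r ^ 2 * π)⁻¹ * ofReal (2 * r) ≤ (ofReal r)⁻¹`.
-/

namespace P137

open MeasureTheory Metric Set
open scoped ENNReal

theorem avg_small_le (f : EuclideanSpace ℝ (Fin 2) → ℝ≥0∞) (hf : Measurable f)
    (hBD : ∀ x y : EuclideanSpace ℝ (Fin 2), (∀ i, |x i| ≤ |y i|) → f y ≤ f x)
    (a r : ℝ) (hr : 0 < r) (hra : r ≤ |a| / 2) :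
    (volume (ball (!₂[a, 0] : EuclideanSpace ℝ (Fin 2)) r))⁻¹ *
        ∫⁻ y in ball (!₂[a, 0] : EuclideanSpace ℝ (Fin 2)) r, f y ≤
      (ENNReal.ofReal r)⁻¹ * ∫⁻ b in Ioo (-r) r, f !₂[a / 2, b] := by
  set c : EuclideanSpace ℝ (Fin 2) := !₂[a, 0] with hc
  set J : ℝ≥0∞ := ∫⁻ b in Ioo (-r) r, f !₂[a / 2, b] with hJ
  have hcoord : ∀ y₁ y₂ : ℝ, (!₂[y₁, y₂] : EuclideanSpace ℝ (Fin 2)) ∈ ball c r →
      |y₁ - a| < r ∧ |y₂| < r := by
    intro y₁ y₂ h
    rw [mem_ball, dist_eq_norm] at h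
    have h0 := PiLp.norm_apply_le ((!₂[y₁, y₂] : EuclideanSpace ℝ (Fin 2)) - c) 0
    have h1 := PiLp.norm_apply_le ((!₂[y₁, y₂] : EuclideanSpace ℝ (Fin 2)) - c) 1
    have e0 : ((!₂[y₁, y₂] : EuclideanSpace ℝ (Fin 2)) - c) 0 = y₁ - a := by simp [hc]
    have e1 : ((!₂[y₁, y₂] : EuclideanSpace ℝ (Fin 2)) - c) 1 = y₂ := by simp [hc]
    rw [e0, Real.norm_eq_abs] at h0
    rw [e1, Real.norm_eq_abs] at h1
    constructor <;> linarith
  have hint : ∫⁻ y in ball c r, f y ≤ J * ENNReal.ofReal (2 * r) := by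
    rw [← lintegral_indicator measurableSet_ball, lintegral_E2 _ (hf.indicator measurableSet_ball)]
    calc ∫⁻ y₁ : ℝ, ∫⁻ y₂ : ℝ, (ball c r).indicator f !₂[y₁, y₂]
        ≤ ∫⁻ y₁ : ℝ, (Ioo (a - r) (a + r)).indicator (fun _ => J) y₁ := by
          refine lintegral_mono (fun y₁ => ?_)
          by_cases h1 : y₁ ∈ Ioo (a - r) (a + r)
          · rw [indicator_of_mem h1, hJ, ← lintegral_indicator measurableSet_Ioo]
            refine lintegral_mono (fun y₂ => ?_)
            by_cases h2 : (!₂[y₁, y₂] : EuclideanSpace ℝ (Fin 2)) ∈ ball c r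
            · obtain ⟨k1, k2⟩ := hcoord y₁ y₂ h2
              have k3 : y₂ ∈ Ioo (-r) r := abs_lt.1 k2
              rw [indicator_of_mem h2, indicator_of_mem k3]
              apply hBD
              intro i
              have k4 : |a / 2| ≤ |y₁| := by
                have k5 := abs_sub_abs_le_abs_sub a y₁
                rw [abs_sub_comm] at k5
                rw [abs_div, abs_two]
                linarith
              fin_cases i
              · simpa using k4
              · simp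
            · rw [indicator_of_notMem h2]
              exact bot_le
          · rw [indicator_of_notMem h1]
            have hz : ∀ y₂ : ℝ, (ball c r).indicator f !₂[y₁, y₂] = 0 := by
              intro y₂
              apply indicator_of_notMem
              intro h2
              obtain ⟨k1, _⟩ := hcoord y₁ y₂ h2
              apply h1
              rw [abs_lt] at k1
              exact ⟨by linarith, by linarith⟩
            simp [hz]
      _ = J * ENNReal.ofReal (2 * r) := by
          rw [lintegral_indicator_const measurableSet_Ioo, Real.volume_Ioo]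
          congr 2
          ring
  have hvol : (volume (ball c r))⁻¹ * ENNReal.ofReal (2 * r) ≤ (ENNReal.ofReal r)⁻¹ := by
    have hpos := Real.pi_pos
    rw [EuclideanSpace.volume_ball_fin_two, ← ENNReal.ofReal_pow hr.le,
      ← ENNReal.ofReal_mul (by positivity), ← ENNReal.ofReal_inv_of_pos (by positivity),
      ← ENNReal.ofReal_mul (by positivity), ← ENNReal.ofReal_inv_of_pos hr]
    apply ENNReal.ofReal_le_ofReal
    have h3 := Real.pi_gt_three
    rw [← div_eq_inv_mul, div_le_iff₀ (by positivity)]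
    have e : r⁻¹ * (r ^ 2 * Real.pi) = r * Real.pi := by
      field_simp
    rw [e]
    nlinarith
  calc (volume (ball c r))⁻¹ * ∫⁻ y in ball c r, f y
      ≤ (volume (ball c r))⁻¹ * (J * ENNReal.ofReal (2 * r)) := by gcongr
    _ = ((volume (ball c r))⁻¹ * ENNReal.ofReal (2 * r)) * J := by ring
    _ ≤ (ENNReal.ofReal r)⁻¹ * J := by gcongr

end P137
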