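import Mathlib

/-!
# P137 / BD-A: integrals over the Euclidean plane as iterated integrals

Blueprint. `EuclideanSpace.volume_preserving_measurableEquiv (Fin 2)` (or `PiLp.volume_preserving_ofLp`) transfers to `Fin 2 → ℝ`; `MeasureTheory.volume_preserving_finTwoArrow ℝ` transfers to `ℝ × ℝ`;
`MeasurePreserving.lintegral_comp_emb` / `lintegral_map_equiv`, then `lintegral_prod` (`volume_eq_prod`). The composite inverse map is `(a, b) ↦ !₂[a, b]`.
-/

namespace P137

open MeasureTheory Metric Set
open scoped ENNReal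

theorem measurePreserving_pt :
    MeasurePreserving (fun p : ℝ × ℝ => (!₂[p.1, p.2] : EuclideanSpace ℝ (Fin 2))) volume volume := by
  have h1 := PiLp.volume_preserving_toLp (Fin 2)
  have h2 := (MeasureTheory.volume_preserving_finTwoArrow ℝ).symm
  have h3 := h1.comp h2
  have e : (fun p : ℝ × ℝ => (!₂[p.1, p.2] : EuclideanSpace ℝ (Fin 2)))
      = ((WithLp.toLp 2 : (Fin 2 → ℝ) → EuclideanSpace ℝ (Fin 2)) ∘
          ⇑(MeasurableEquiv.finTwoArrow (α := ℝ)).symm) := by
    funext p
    ext i
    fin_cases i <;> simp [MeasurableEquiv.finTwoArrow]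
  rw [e]
  exact h3

theorem lintegral_E2 (G : EuclideanSpace ℝ (Fin 2) → ℝ≥0∞) (hG : Measurable G) :
    ∫⁻ x, G x = ∫⁻ a : ℝ, ∫⁻ b : ℝ, G !₂[a, b] := by
  rw [← measurePreserving_pt.lintegral_comp hG, Measure.volume_eq_prod]
  exact lintegral_prod _ (hG.comp measurePreserving_pt.measurable).aemeasurable

theorem measurable_pt : Measurable (fun p : ℝ × ℝ => (!₂[p.1, p.2] : EuclideanSpace ℝ (Fin 2))) :=
  measurePreserving_pt.measurable

end P137
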