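import Vale.Agent.Lib.P137.BD.Transfer
import Vale.Agent.Lib.P137.BD.OneDLow

/-!
# P137 / BD-G: strip integrals of a block-decreasing function are controlled by vertical translation differences

Blueprint. `lintegral_E2` on the right side, `!₂[a, b] + !₂[0, t] = !₂[a, b + t]`. By `lintegral_E2` and `hint`, `∫⁻ a, ∫⁻ b, f !₂[a, b] ≠ ∞`, so for a.e. `a` the inner integral is finite (`ae_lt_top`, the inner integral is measurable in `a` by
`Measurable.lintegral_prod_right'` and `measurable_pt`). For such `a` apply `unimodal_strip_le` to `ψ b = f !₂[a, b]`; `lintegral_mono_ae`.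
-/

namespace P137

open MeasureTheory Metric Set
open scoped ENNReal

theorem BD_strip_le (f : EuclideanSpace ℝ (Fin 2) → ℝ≥0∞) (hf : Measurable f)
    (hBD : ∀ x y : EuclideanSpace ℝ (Fin 2), (∀ i, |x i| ≤ |y i|) → f y ≤ f x)
    (hint : ∫⁻ x, f x ≠ ∞) (t : ℝ) (ht : 0 < t) :
    ∫⁻ a : ℝ, ∫⁻ b in Ioo (-(t / 2)) (t / 2), f !₂[a, b] ≤
      ∫⁻ x, (f x - f (x + !₂[0, t])) := by
  have hG : Measurable (fun x : EuclideanSpace ℝ (Fin 2) => f x - f (x + !₂[0, t])) :=
    hf.sub (hf.comp (measurable_id.add_const _))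
  rw [lintegral_E2 _ hG]
  have hadd : ∀ a b : ℝ, (!₂[a, b] + !₂[0, t] : EuclideanSpace ℝ (Fin 2)) = !₂[a, b + t] := by
    intro a b
    ext i
    fin_cases i <;> simp
  simp only [hadd]
  have hm : Measurable (fun p : ℝ × ℝ => f !₂[p.1, p.2]) := hf.comp measurable_pt
  have hinner : Measurable (fun a : ℝ => ∫⁻ b, f !₂[a, b]) :=
    Measurable.lintegral_prod_right' hm
  have hfin2 : ∫⁻ a : ℝ, ∫⁻ b, f !₂[a, b] ≠ ∞ := by
    rw [← lintegral_E2 _ hf]; exact hint
  have hae : ∀ᵐ a : ℝ, ∫⁻ b, f !₂[a, b] < ∞ := ae_lt_top hinner hfin2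
  refine lintegral_mono_ae ?_
  filter_upwards [hae] with a ha
  refine unimodal_strip_le (fun b => f !₂[a, b]) ?_ ha.ne t ht
  intro s s' hss
  apply hBD
  intro i
  fin_cases i
  · simp
  · simpa using hss

end P137
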